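import Vale.Agent.P358.Tens

namespace Vale.Agent.P358

open Real Finset Matrix
open scoped ComplexOrder ComplexConjugate

set_option linter.unusedSectionVars false

variable {n : ℕ} {γ ν : ℝ}

/-- single-letter value in nats -/
noncomputable def gv (γ ν q : ℝ) : ℝ :=
  negMulLog (1 - ((1 - γ) * q + γ * ν)) + negMulLog ((1 - γ) * q + γ * ν) - e2 1 (del γ ν q)

/-- upper bound on all Holevo quantities, in nats -/
def Bd (γ ν : ℝ) (n : ℕ) (c : ℝ) : Prop :=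
  ∀ (J : Type) [Fintype J] (p : J → ℝ) (ρ : J → Matrix (Fin n → Fin 2) (Fin n → Fin 2) ℂ),
    (∀ a, 0 ≤ p a) → ∑ a, p a = 1 → (∀ a, IsState (ρ a)) →
    vN (∑ a, (p a : ℂ) • tensorPow (gad γ ν) n (ρ a)) -
      ∑ a, p a * vN (tensorPow (gad γ ν) n (ρ a)) ≤ c

lemma Bd.un (hγ : γ ∈ Set.Icc (0 : ℝ) 1) (hν : ν ∈ Set.Icc (0 : ℝ) 1) {c : ℝ} (h : Bd γ ν n c)
    {J : Type} [Fintype J] (X : J → Matrix (Fin n → Fin 2) (Fin n → Fin 2) ℂ)
    (hX : ∀ a, (X a).PosSemidef) (h1 : ∑ a, tr (X a) = 1) :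
    vN (∑ a, tensorPow (gad γ ν) n (X a)) - ∑ a, H (tensorPow (gad γ ν) n (X a)) ≤ c := by
  have hS : IsState (∑ a, X a) := by
    have := posSemidef_sum univ fun a _ => hX a
    exact ⟨this, by rw [trace_eq this, tr_sum, h1]; simp⟩
  have : ∀ a, ∃ ρ, IsState ρ ∧ X a = (tr (X a) : ℂ) • ρ := fun a => by
    rcases (tr_nonneg (hX a)).eq_or_lt with h | h
    · refine ⟨_, hS, ?_⟩
      rw [← h, (hX a).trace_eq_zero_iff.1 (by rw [trace_eq (hX a), ← h]; simp)]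
      simp
    · have h' : (tr (X a) : ℂ) ≠ 0 := by exact_mod_cast h.ne'
      refine ⟨(((tr (X a))⁻¹ : ℝ) : ℂ) • X a, ⟨psd_smul (inv_pos.2 h).le (hX a), ?_⟩, ?_⟩
      · rw [trace_smul, trace_eq (hX a)]; simp [h']
      · rw [smul_smul]; simp [h']
  choose ρ hρ e using this
  have B := h J (fun a => tr (X a)) ρ (fun a => tr_nonneg (hX a)) h1 hρ
  have e1 : ∀ a, tensorPow (gad γ ν) n (X a) = (tr (X a) : ℂ) • tensorPow (gad γ ν) n (ρ a) :=
    fun a => by rw [← tp_smul, ← e]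
  have e2 : ∀ a, H (tensorPow (gad γ ν) n (X a)) = tr (X a) * vN (tensorPow (gad γ ν) n (ρ a)) :=
    fun a => by
      rw [e1, H_smul (tr_nonneg (hX a)) (tp_psd hγ hν (hρ a).1),
        H_one (by rw [tp_tr, tr_state (hρ a)])]
  simp only [e2]
  simp only [← e1] at B
  exact B

lemma bd_zero : Bd γ ν 0 0 := by
  intro J _ p ρ _ h1 hρ
  have e : ∀ a, tensorPow (gad γ ν) 0 (ρ a) = 1 := fun a => by
    have := tp_trace γ ν (ρ a)
    rw [(hρ a).2] at this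
    ext x y
    rw [Subsingleton.elim y x, one_apply_eq, ← this, trace, Fintype.sum_subsingleton _ x]
    rfl
  simp only [e, ← sum_smul, ← sum_mul, h1]
  rw [← Complex.ofReal_sum, h1]
  simp

lemma tr_split (ρ : Matrix (Fin (n + 1) → Fin 2) (Fin (n + 1) → Fin 2) ℂ) :
    tr (bl ρ 0 0) + tr (bl ρ 1 1) = tr ρ := by
  simp only [tr_eq, sum_cons (n := n), bl, submatrix_apply]

lemma one_step (hγ : γ ∈ Set.Icc (0 : ℝ) 1) (hν : ν ∈ Set.Icc (0 : ℝ) 1)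
    {ρ : Matrix (Fin (n + 1) → Fin 2) (Fin (n + 1) → Fin 2) ℂ} (h : IsState ρ) :
    ∃ X : Fin 2 × Fin 3 → Matrix (Fin n → Fin 2) (Fin n → Fin 2) ℂ, (∀ j, (X j).PosSemidef) ∧
      ∑ j, X j = bl ρ 0 0 + bl ρ 1 1 ∧
      ∑ j, H (tensorPow (gad γ ν) n (X j)) + e2 1 (del γ ν (tr (bl ρ 1 1))) ≤
        vN (tensorPow (gad γ ν) (n + 1) ρ) := by
  obtain ⟨K, hK⟩ := kraus hγ hν
  obtain ⟨S, hS⟩ := exists_sqrt h.1
  have hb : ∀ i j, bl ρ i j =
      S.submatrix (fun x => Fin.cons i x) id * (S.submatrix (fun x => Fin.cons j x) id)ᴴ :=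
    fun i j => by rw [hS]; rfl
  have ht := tr_split ρ
  rw [tr_state h] at ht
  have hv := vN_sub (spl n) (tp_psd hγ hν h.1)
  rw [tp_succ] at hv
  simp only [hb] at hv ht ⊢
  generalize S.submatrix (fun x : Fin n → Fin 2 => (Fin.cons 0 x : Fin (n + 1) → Fin 2)) id = S0
    at *
  generalize S.submatrix (fun x : Fin n → Fin 2 => (Fin.cons 1 x : Fin (n + 1) → Fin 2)) id = S1
    at *
  have t0 := tp_tr γ ν (S0 * S0ᴴ)
  have t1 := tp_tr γ ν (S1 * S1ᴴ)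
  simp only [lift_mul hK] at hv t0 t1
  obtain ⟨-, c, hc, Hc⟩ := star_ineq hγ hν (lift K S0) (lift K S1) (by rw [t0, t1, ht])
  rw [H_one (M := gb _ _ _ _ _ _) (by
    rw [gb, tr_blocks, tr_add, tr_add, tr_smul, tr_smul, tr_smul, tr_smul, t0, t1]
    linear_combination ht), hv, t1] at Hc
  refine ⟨fun j => ((1 / 2 : ℝ) : ℂ) • (cmb (c j) S0 S1 * (cmb (c j) S0 S1)ᴴ),
    fun j => psd_smul (by norm_num) (posSemidef_self_mul_conjTranspose _), ?_, ?_⟩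
  · simp only [cmb_mul, ← smul_sum, sum_add_distrib, ← sum_smul, hc]
    simp [smul_smul]
  · refine le_of_eq_of_le ?_ Hc
    rw [mul_sum]
    congr 1
    refine sum_congr rfl fun j _ => ?_
    rw [tp_smul, lift_mul hK, lift_cmb,
      H_smul (by norm_num) (posSemidef_self_mul_conjTranspose _)]

lemma bl_sum {J : Type} [Fintype J] (p : J → ℝ)
    (ρ : J → Matrix (Fin (n + 1) → Fin 2) (Fin (n + 1) → Fin 2) ℂ) (i j : Fin 2) :
    bl (∑ a, (p a : ℂ) • ρ a) i j = ∑ a, (p a : ℂ) • bl (ρ a) i j := by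
  ext x y; simp [bl, Matrix.sum_apply]

lemma bd_succ (hγ : γ ∈ Set.Icc (0 : ℝ) 1) (hν : ν ∈ Set.Icc (0 : ℝ) 1) {c χ : ℝ}
    (h : Bd γ ν n c) (hχ : ∀ q ∈ Set.Icc (0 : ℝ) 1, gv γ ν q ≤ χ) : Bd γ ν (n + 1) (c + χ) := by
  intro J _ p ρ hp h1 hρ
  choose X hX sX HX using fun a => one_step hγ hν (hρ a)
  have b0 : ∀ a, 0 ≤ tr (bl (ρ a) 0 0) := fun a => tr_nonneg ((hρ a).1.submatrix _)
  have b1 : ∀ a, 0 ≤ tr (bl (ρ a) 1 1) := fun a => tr_nonneg ((hρ a).1.submatrix _)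
  have b2 : ∀ a, tr (bl (ρ a) 0 0) + tr (bl (ρ a) 1 1) = 1 := fun a => by
    rw [tr_split, tr_state (hρ a)]
  have hq : ∀ a, tr (bl (ρ a) 1 1) ∈ Set.Icc (0 : ℝ) 1 := fun a =>
    ⟨b1 a, by linarith [b0 a, b2 a]⟩
  have B := h.un hγ hν (fun x : J × (Fin 2 × Fin 3) => (p x.1 : ℂ) • X x.1 x.2)
    (fun x => psd_smul (hp _) (hX _ _)) (by
      rw [Fintype.sum_prod_type, ← h1]
      refine sum_congr rfl fun a _ => ?_
      simp only [tr_smul, ← mul_sum]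
      rw [← tr_sum, sX, tr_add, b2, mul_one])
  have F := f_jensen hγ hν p _ hp h1 hq
  obtain ⟨R, hR⟩ : ∃ R, R = ∑ a, (p a : ℂ) • ρ a := ⟨_, rfl⟩
  have pR : R.PosSemidef := hR ▸ posSemidef_sum _ fun a _ => psd_smul (hp a) (hρ a).1
  have q1 : tr (bl R 1 1) = ∑ a, p a * tr (bl (ρ a) 1 1) := by
    simp only [hR, bl_sum, tr_sum, tr_smul]
  have q0 : tr (bl R 0 0) = 1 - tr (bl R 1 1) := by
    have : tr R = 1 := by simp only [hR, tr_sum, tr_smul, fun a => tr_state (hρ a), mul_one, h1]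
    rw [← this, ← tr_split R]; ring
  have G := hχ (tr (bl R 1 1)) ⟨tr_nonneg (pR.submatrix _), by
    have := tr_nonneg (pR.submatrix fun x : Fin n → Fin 2 => (Fin.cons 0 x : Fin (n + 1) → Fin 2))
    change 0 ≤ tr (bl R 0 0) at this
    linarith⟩
  have e1 : ∑ a, (p a : ℂ) • tensorPow (gad γ ν) (n + 1) (ρ a) = tensorPow (gad γ ν) (n + 1) R := by
    simp only [hR, tp_sum, tp_smul]
  have e3 : ∑ x : J × (Fin 2 × Fin 3), tensorPow (gad γ ν) n ((p x.1 : ℂ) • X x.1 x.2) =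
      tensorPow (gad γ ν) n (bl R 0 0) + tensorPow (gad γ ν) n (bl R 1 1) := by
    have : ∀ A B, tensorPow (gad γ ν) n (A + B) =
        tensorPow (gad γ ν) n A + tensorPow (gad γ ν) n B := fun A B => by
      simpa using tp_sum (gad γ ν) ![A, B]
    rw [← this, ← tp_sum, Fintype.sum_prod_type]
    simp only [← smul_sum, sX, hR, bl_sum, smul_add, sum_add_distrib]
  have e4 : ∑ x : J × (Fin 2 × Fin 3), H (tensorPow (gad γ ν) n ((p x.1 : ℂ) • X x.1 x.2)) =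
      ∑ a, p a * ∑ j, H (tensorPow (gad γ ν) n (X a j)) := by
    rw [Fintype.sum_prod_type]
    refine sum_congr rfl fun a _ => ?_
    rw [mul_sum]
    exact sum_congr rfl fun j _ => by rw [tp_smul, H_smul (hp a) (tp_psd hγ hν (hX a j))]
  rw [e3, e4] at B
  have P := (tp_psd hγ hν pR).submatrix (spl n)
  have hv := vN_sub (spl n) (tp_psd hγ hν pR)
  rw [tp_succ, gb] at P hv
  have V := vN_le_blocks P (by simp only [tr_add, tr_smul, tp_tr, q0]; ring)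
  rw [hv] at V
  simp only [tr_add, tr_smul, tp_tr, q0] at V
  rw [show ∀ A B : Matrix (Fin n → Fin 2) (Fin n → Fin 2) ℂ,
    ((1 - γ * ν : ℝ) : ℂ) • A + ((γ * (1 - ν) : ℝ) : ℂ) • B +
      (((γ * ν : ℝ) : ℂ) • A + ((1 - γ + γ * ν : ℝ) : ℂ) • B) = A + B from fun A B => by
        push_cast; module,
    show (1 - γ * ν) * (1 - tr (bl R 1 1)) + γ * (1 - ν) * tr (bl R 1 1) =
      1 - ((1 - γ) * tr (bl R 1 1) + γ * ν) by ring,
    show γ * ν * (1 - tr (bl R 1 1)) + (1 - γ + γ * ν) * tr (bl R 1 1) =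
      (1 - γ) * tr (bl R 1 1) + γ * ν by ring] at V
  have S := sum_le_sum (s := univ) fun a _ => mul_le_mul_of_nonneg_left (HX a) (hp a)
  simp only [mul_add, sum_add_distrib] at S
  rw [e1]
  rw [← q1] at F
  unfold gv at G
  linarith

lemma bd_all (hγ : γ ∈ Set.Icc (0 : ℝ) 1) (hν : ν ∈ Set.Icc (0 : ℝ) 1) {χ : ℝ}
    (hχ : ∀ q ∈ Set.Icc (0 : ℝ) 1, gv γ ν q ≤ χ) (n : ℕ) : Bd γ ν n (n * χ) := by
  induction n with
  | zero => simpa using bd_zero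
  | succ n ih =>
    have := bd_succ hγ hν ih hχ
    rwa [show (n : ℝ) * χ + χ = ((n + 1 : ℕ) : ℝ) * χ by push_cast; ring] at this

lemma entropy_eq {m : Type} [Fintype m] [DecidableEq m] (ρ : Matrix m m ℂ) :
    entropy ρ = vN ρ / Real.log 2 := by
  unfold entropy vN
  split_ifs
  · rw [sum_div, ← sum_neg_distrib]
    exact sum_congr rfl fun i _ => by rw [negMulLog, Real.logb]; ring
  · simp

lemma mem_set {m k : Type} [Fintype m] [Fintype k] [DecidableEq k]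
    (N : Matrix m m ℂ → Matrix k k ℂ) (x : ℝ) :
    x ∈ holevoSet N ↔ ∃ (J : Type) (_ : Fintype J) (p : J → ℝ) (ρ : J → Matrix m m ℂ),
      (∀ a, 0 ≤ p a) ∧ ∑ a, p a = 1 ∧ (∀ a, IsState (ρ a)) ∧
      x = (vN (∑ a, (p a : ℂ) • N (ρ a)) - ∑ a, p a * vN (N (ρ a))) / Real.log 2 := by
  constructor
  · rintro ⟨k, p, ρ, h0, h1, h2, h3⟩
    refine ⟨Fin k, inferInstance, p, ρ, h0, h1, h2, ?_⟩
    simp only [h3, entropy_eq, sub_div, sum_div, mul_div_assoc]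
  · rintro ⟨J, _, p, ρ, h0, h1, h2, h3⟩
    have e := (Fintype.equivFin J).symm
    refine ⟨_, p ∘ e, ρ ∘ e, fun a => h0 _, by rw [← h1]; exact e.sum_comp p, fun a => h2 _, ?_⟩
    rw [h3, ← e.sum_comp, ← e.sum_comp]
    simp only [entropy_eq, sub_div, sum_div, mul_div_assoc, Function.comp]

/-- the two pure states of population `q` -/
noncomputable def pur2 (q : ℝ) (s : Fin 2) : Matrix (Fin 2) (Fin 2) ℂ :=
  vecMulVec ![(√(1 - q) : ℝ), (-1) ^ (s : ℕ) * (√q : ℝ)]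
    (star ![((√(1 - q) : ℝ) : ℂ), (-1) ^ (s : ℕ) * (√q : ℝ)])

lemma lower (hγ : γ ∈ Set.Icc (0 : ℝ) 1) (hν : ν ∈ Set.Icc (0 : ℝ) 1) {q : ℝ}
    (hq : q ∈ Set.Icc (0 : ℝ) 1) (n : ℕ) :
    n * (gv γ ν q / Real.log 2) ∈ holevoSet (tensorPow (gad γ ν) n) := by
  have c0 : ((√(1 - q) : ℝ) : ℂ) * (√(1 - q) : ℝ) = 1 - q := by
    rw [← Complex.ofReal_mul, Real.mul_self_sqrt (sub_nonneg.2 hq.2)]; simp
  have c1 : ((√q : ℝ) : ℂ) * (√q : ℝ) = q := by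
    rw [← Complex.ofReal_mul, Real.mul_self_sqrt hq.1]
  have c2 : ((√(1 - γ) : ℝ) : ℂ) * (√(1 - γ) : ℝ) = 1 - γ := by
    rw [← Complex.ofReal_mul, Real.mul_self_sqrt (sub_nonneg.2 hγ.2)]; simp
  have s1 : ∀ s, IsState (pur2 q s) := fun s => ⟨posSemidef_vecMulVec_self_star _, by
    rw [trace_fin_two]
    fin_cases s <;> simp [pur2, vecMulVec_apply] <;> linear_combination c0 + c1⟩
  have s2 : ∀ s, IsState (gad γ ν (pur2 q s)) := fun s => by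
    have a := tp_psd hγ hν (pk_state (A := fun _ : Fin 1 => pur2 q s) fun _ => s1 s).1
    have b := tp_trace γ ν (pk fun _ : Fin 1 => pur2 q s)
    rw [tp_pk] at a b
    refine ⟨?_, by simpa [trace_pk, (s1 s).2] using b⟩
    have := a.submatrix fun (x : Fin 2) (_ : Fin 1) => x
    convert this using 1
    ext x y; simp [pk]
  have s3 : ∀ s, vN (gad γ ν (pur2 q s)) = e2 1 (del γ ν q) := fun s => by
    rw [vN_two (s2 s).1, tr_state (s2 s), ← Complex.ofReal_re (del γ ν q)]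
    congr 2
    rw [det_fin_two, del]
    push_cast
    fin_cases s <;> simp [pur2, gad, vecMulVec_apply] <;> rw [c0, c1] <;>
      linear_combination (-((√(1 - q) : ℝ) * (√q : ℝ) : ℂ) ^ 2) * c2 -
        (1 - γ) * ((√q : ℝ) * (√q : ℝ)) * c0 - (1 - γ) * (1 - q) * c1
  have t0 : 0 ≤ (1 - γ) * q + γ * ν :=
    add_nonneg (mul_nonneg (sub_nonneg.2 hγ.2) hq.1) (mul_nonneg hγ.1 hν.1)
  have t1 : 0 ≤ 1 - ((1 - γ) * q + γ * ν) := by
    nlinarith [mul_nonneg (sub_nonneg.2 hγ.2) (sub_nonneg.2 hq.2),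
      mul_nonneg hγ.1 (sub_nonneg.2 hν.2)]
  have d0 : ∀ i, 0 ≤ ![1 - ((1 - γ) * q + γ * ν), (1 - γ) * q + γ * ν] i := fun i => by
    fin_cases i <;> assumption
  have s4 : IsState (dg ![1 - ((1 - γ) * q + γ * ν), (1 - γ) * q + γ * ν]) :=
    ⟨dg_psd d0, by rw [trace_eq (dg_psd d0), tr_dg]; simp⟩
  have s5 : ∀ x y, ∑ s, (1 / 2 : ℂ) * gad γ ν (pur2 q s) x y =
      dg ![1 - ((1 - γ) * q + γ * ν), (1 - γ) * q + γ * ν] x y := fun x y => by
    fin_cases x <;> fin_cases y <;> simp [pur2, gad, vecMulVec_apply, Fin.sum_univ_two, dg] <;>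
      rw [c0, c1] <;> ring
  have hp : ∑ _ε : Fin n → Fin 2, ∏ _i : Fin n, (1 / 2 : ℝ) = 1 := by
    rw [sum_prod fun (_ : Fin n) (_ : Fin 2) => (1 / 2 : ℝ)]; simp
  refine (mem_set _ _).2 ⟨Fin n → Fin 2, inferInstance, fun _ => ∏ _i : Fin n, (1 / 2 : ℝ),
    fun ε => pk fun i => pur2 q (ε i), fun _ => by positivity, hp,
    fun ε => pk_state fun i => s1 _, ?_⟩
  have e : ∑ ε : Fin n → Fin 2, ((∏ _i : Fin n, (1 / 2 : ℝ) : ℝ) : ℂ) •
      tensorPow (gad γ ν) n (pk fun i => pur2 q (ε i)) =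
      pk fun _ => dg ![1 - ((1 - γ) * q + γ * ν), (1 - γ) * q + γ * ν] := by
    ext x y
    simp only [tp_pk, Matrix.sum_apply, Matrix.smul_apply, smul_eq_mul]
    simp only [pk, of_apply, ← s5, ← sum_prod, prod_mul_distrib]
    push_cast; rfl
  rw [e, vN_pk fun _ => s4, vN_dg d0]
  simp only [tp_pk, fun ε : Fin n → Fin 2 => vN_pk fun i => s2 (ε i), s3, ← sum_mul, hp]
  simp [gv]
  ring

lemma set_one (γ ν : ℝ) (hγ : γ ∈ Set.Icc (0 : ℝ) 1) (hν : ν ∈ Set.Icc (0 : ℝ) 1) :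
    holevoSet (gad γ ν) = holevoSet (tensorPow (gad γ ν) 1) := by
  obtain ⟨e, he⟩ : ∃ e : (Fin 1 → Fin 2) ≃ Fin 2, e = Equiv.funUnique (Fin 1) (Fin 2) := ⟨_, rfl⟩
  have h1 : ∀ ρ : Matrix (Fin 2) (Fin 2) ℂ, ρ.submatrix e e = pk fun _ => ρ := fun ρ => by
    ext x y; simp [pk, he]
  have h2 : ∀ ρ, tensorPow (gad γ ν) 1 (ρ.submatrix e e) = (gad γ ν ρ).submatrix e e := fun ρ => by
    rw [h1, h1, tp_pk]
  have h3 : ∀ ρ : Matrix (Fin 2) (Fin 2) ℂ, IsState (ρ.submatrix e e) ↔ IsState ρ := fun ρ => by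
    unfold IsState
    rw [posSemidef_submatrix_equiv, h1, trace_pk]; simp
  have h4 : ∀ ρ, IsState ρ → (gad γ ν ρ).PosSemidef := fun ρ h => by
    rw [← posSemidef_submatrix_equiv e, ← h2]; exact tp_psd hγ hν ((h3 ρ).2 h).1
  have h5 : ∀ (J : Type) [Fintype J] (p : J → ℝ) (ρ : J → Matrix (Fin 2) (Fin 2) ℂ),
      (∀ a, 0 ≤ p a) → (∀ a, IsState (ρ a)) →
      vN (∑ a, (p a : ℂ) • tensorPow (gad γ ν) 1 ((ρ a).submatrix e e)) -
        ∑ a, p a * vN (tensorPow (gad γ ν) 1 ((ρ a).submatrix e e)) =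
      vN (∑ a, (p a : ℂ) • gad γ ν (ρ a)) - ∑ a, p a * vN (gad γ ν (ρ a)) := by
    intro J _ p ρ hp hρ
    rw [← vN_sub e (posSemidef_sum _ fun a _ => psd_smul (hp a) (h4 _ (hρ a)))]
    simp only [h2, fun a => vN_sub e (h4 _ (hρ a))]
    congr 2
    ext x y; simp [Matrix.sum_apply]
  ext x
  rw [mem_set, mem_set]
  constructor
  · rintro ⟨J, _, p, ρ, a, b, c, d⟩
    exact ⟨J, _, p, fun a => (ρ a).submatrix e e, a, b, fun a => (h3 _).2 (c a), by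
      rw [h5 J p ρ a c, d]⟩
  · rintro ⟨J, _, p, ρ, a, b, c, d⟩
    have h6 : ∀ a, ((ρ a).submatrix e.symm e.symm).submatrix e e = ρ a := fun a => by simp
    have h7 : ∀ a, IsState ((ρ a).submatrix e.symm e.symm) := fun a =>
      (h3 _).1 (by rw [h6]; exact c a)
    refine ⟨J, _, p, fun a => (ρ a).submatrix e.symm e.symm, a, b, h7, ?_⟩
    rw [← h5 J p _ a h7, d]
    simp only [h6]

lemma gv_eq (γ ν q : ℝ) : gv γ ν q / Real.log 2 = h2 ((1 - γ) * q + γ * ν) -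
    h2 ((1 + √(1 - 4 * (((1 - γ) * q + γ * ν) * (1 - ((1 - γ) * q + γ * ν)) -
      (1 - γ) * q * (1 - q)))) / 2) := by
  unfold gv h2 e2 del
  rw [one_pow]
  generalize √(1 - 4 * (((1 - γ) * q + γ * ν) * (1 - ((1 - γ) * q + γ * ν)) -
      (1 - γ) * q * (1 - q))) = u
  rw [show 1 - (1 + u) / 2 = (1 - u) / 2 by ring]
  simp only [negMulLog, Real.logb]
  ring

theorem main (hγ : γ ∈ Set.Icc (0 : ℝ) 1) (hν : ν ∈ Set.Icc (0 : ℝ) 1) (G : Set ℝ)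
    (hG : G = {y | ∃ q ∈ Set.Icc (0 : ℝ) 1, y = gv γ ν q / Real.log 2}) :
    (∀ n, BddAbove (holevoSet (tensorPow (gad γ ν) n))) ∧
    (∀ n : ℕ, 1 ≤ n → holevo (tensorPow (gad γ ν) n) = n * sSup G) ∧
    holevo (gad γ ν) = sSup G ∧ capacity (gad γ ν) = sSup G := by
  have l2 : 0 < Real.log 2 := Real.log_pos one_lt_two
  have mem : ∀ q ∈ Set.Icc (0 : ℝ) 1, gv γ ν q / Real.log 2 ∈ G := fun q hq => by
    rw [hG]; exact ⟨q, hq, rfl⟩
  have ne : G.Nonempty := ⟨_, mem 0 ⟨le_rfl, zero_le_one⟩⟩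
  have bd : BddAbove G := by
    refine ⟨2 / Real.log 2, ?_⟩
    rw [hG]
    rintro _ ⟨q, hq, rfl⟩
    gcongr
    have t0 : 0 ≤ (1 - γ) * q + γ * ν :=
      add_nonneg (mul_nonneg (sub_nonneg.2 hγ.2) hq.1) (mul_nonneg hγ.1 hν.1)
    have t1 : 0 ≤ 1 - ((1 - γ) * q + γ * ν) := by
      nlinarith [mul_nonneg (sub_nonneg.2 hγ.2) (sub_nonneg.2 hq.2),
        mul_nonneg hγ.1 (sub_nonneg.2 hν.2)]
    have a := negMulLog_le_one_sub_self t0
    have b := negMulLog_le_one_sub_self t1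
    have c := e2_mono (T := 1) zero_le_one le_rfl (del_nonneg hγ hν q)
      (by rw [one_pow]; exact del_le hγ hq)
    have d : e2 1 0 = 0 := by simp [e2]
    unfold gv
    linarith
  have B := bd_all hγ hν (χ := sSup G * Real.log 2) fun q hq =>
    (div_le_iff₀ l2).1 (le_csSup bd (mem q hq))
  have U : ∀ n : ℕ, n * sSup G ∈ upperBounds (holevoSet (tensorPow (gad γ ν) n)) := fun n x hx => by
    obtain ⟨J, _, p, ρ, a, b, c, rfl⟩ := (mem_set _ _).1 hx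
    rw [div_le_iff₀ l2, mul_assoc]
    exact B n J p ρ a b c
  have E : ∀ n : ℕ, 1 ≤ n → holevo (tensorPow (gad γ ν) n) = n * sSup G := fun n hn => by
    have hn' : (0 : ℝ) < n := by exact_mod_cast hn
    refine le_antisymm (csSup_le ⟨_, lower hγ hν ⟨le_rfl, zero_le_one⟩ n⟩ (U n)) ?_
    rw [← le_div_iff₀' hn']
    refine csSup_le ne ?_
    rw [hG]
    rintro _ ⟨q, hq, rfl⟩
    rw [le_div_iff₀' hn']
    exact le_csSup ⟨_, U n⟩ (lower hγ hν hq n)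
  refine ⟨fun n => ⟨_, U n⟩, E, ?_, ?_⟩
  · rw [holevo, set_one γ ν hγ hν, ← holevo, E 1 le_rfl]; simp
  · have : {x | ∃ n : ℕ, 1 ≤ n ∧ x = 1 / (n : ℝ) * holevo (tensorPow (gad γ ν) n)} = {sSup G} := by
      ext x
      constructor
      · rintro ⟨n, hn, rfl⟩
        have hn' : (0 : ℝ) < n := by exact_mod_cast hn
        rw [E n hn, Set.mem_singleton_iff]; field_simp
      · rintro rfl
        exact ⟨1, le_rfl, by rw [E 1 le_rfl]; simp⟩
    rw [capacity, this, csSup_singleton]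

end Vale.Agent.P358
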