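import Vale.Agent.P358.Gad

namespace Vale.Agent.P358

open Real Finset

lemma convex_E : ConvexOn ℝ (Set.Icc (0 : ℝ) 1) fun C => e2 1 (C ^ 2 / 4) := by
  have e : (fun C : ℝ => e2 1 (C ^ 2 / 4)) = fun C =>
      negMulLog ((1 + √(1 - C ^ 2)) / 2) + negMulLog ((1 - √(1 - C ^ 2)) / 2) := by
    ext C; unfold e2; rw [show (1 : ℝ) ^ 2 - 4 * (C ^ 2 / 4) = 1 - C ^ 2 by ring]
  rw [e]
  have hu : ∀ C ∈ Set.Ioo (0 : ℝ) 1, 0 < √(1 - C ^ 2) ∧ √(1 - C ^ 2) < 1 ∧
      √(1 - C ^ 2) * √(1 - C ^ 2) = 1 - C ^ 2 ∧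
      HasDerivAt (fun C => √(1 - C ^ 2)) (-C / √(1 - C ^ 2)) C := fun C hC => by
    have h1 : 0 < 1 - C ^ 2 := by nlinarith [hC.1, hC.2]
    have h2 := Real.sqrt_pos.2 h1
    refine ⟨h2, ?_, Real.mul_self_sqrt h1.le, ?_⟩
    · rw [Real.sqrt_lt' one_pos]; nlinarith [hC.1]
    · refine (((hasDerivAt_pow 2 C).const_sub 1).sqrt h1.ne').congr_deriv ?_
      field_simp
      norm_num
  refine convexOn_of_hasDerivWithinAt2_nonneg (convex_Icc 0 1)
    (f' := fun C => C / (2 * √(1 - C ^ 2)) *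
      (Real.log (1 + √(1 - C ^ 2)) - Real.log (1 - √(1 - C ^ 2))))
    (f'' := fun C => (Real.log (1 + √(1 - C ^ 2)) - Real.log (1 - √(1 - C ^ 2))) /
      (2 * √(1 - C ^ 2) ^ 3) - 1 / √(1 - C ^ 2) ^ 2) ?_ (fun C hC => ?_) (fun C hC => ?_)
    (fun C hC => ?_)
  · exact Continuous.continuousOn (by fun_prop)
  · rw [interior_Icc] at hC
    obtain ⟨h1, h2, h3, h4⟩ := hu C hC
    have a := (hasDerivAt_negMulLog (x := (1 + √(1 - C ^ 2)) / 2) (by positivity)).comp C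
      ((h4.const_add 1).div_const 2)
    have b := (hasDerivAt_negMulLog (x := (1 - √(1 - C ^ 2)) / 2)
      (by have := sub_pos.2 h2; positivity)).comp C ((h4.const_sub 1).div_const 2)
    refine ((a.add b).congr_deriv ?_).hasDerivWithinAt
    rw [Real.log_div (by positivity) two_ne_zero, Real.log_div (sub_pos.2 h2).ne' two_ne_zero]
    field_simp
    ring
  · rw [interior_Icc] at hC
    obtain ⟨h1, h2, h3, h4⟩ := hu C hC
    have a := ((hasDerivAt_id C).div (h4.const_mul 2) (by positivity)).mul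
      (((h4.const_add 1).log (by positivity)).sub ((h4.const_sub 1).log (sub_pos.2 h2).ne'))
    refine (a.congr_deriv ?_).hasDerivWithinAt
    simp only [id, Pi.div_apply, Pi.sub_apply]
    have h5 := sub_pos.2 h2
    generalize √(1 - C ^ 2) = u at *
    generalize Real.log (1 + u) - Real.log (1 - u) = L
    have h6 : C ^ 2 = (1 - u) * (1 + u) := by linarith
    field_simp
    linear_combination (4 * (1 + u) * (1 - u) * L - 8 * u) * h6 / 4
  · rw [interior_Icc] at hC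
    obtain ⟨h1, h2, h3, h4⟩ := hu C hC
    have h5 := sub_pos.2 h2
    generalize √(1 - C ^ 2) = u at *
    have h6 := Real.le_log_one_add_of_nonneg (x := 2 * u / (1 - u)) (by positivity)
    rw [show 1 + 2 * u / (1 - u) = (1 + u) / (1 - u) by field_simp; ring,
      Real.log_div (by positivity) h5.ne',
      show 2 * (2 * u / (1 - u)) / (2 * u / (1 - u) + 2) = 2 * u by field_simp; ring] at h6
    rw [sub_nonneg, div_le_div_iff₀ (by positivity) (by positivity)]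
    nlinarith [mul_le_mul_of_nonneg_right h6 (sq_nonneg u)]

lemma del_le {γ ν q : ℝ} (hγ : γ ∈ Set.Icc (0 : ℝ) 1) (hq : q ∈ Set.Icc (0 : ℝ) 1) :
    4 * del γ ν q ≤ 1 := by
  unfold del
  nlinarith [sq_nonneg (1 - 2 * ((1 - γ) * q + γ * ν)),
    mul_nonneg (mul_nonneg (sub_nonneg.2 hγ.2) hq.1) (sub_nonneg.2 hq.2)]

lemma f_jensen {γ ν : ℝ} (hγ : γ ∈ Set.Icc (0 : ℝ) 1) (hν : ν ∈ Set.Icc (0 : ℝ) 1)
    {J : Type} [Fintype J] (p q : J → ℝ) (hp : ∀ a, 0 ≤ p a) (h1 : ∑ a, p a = 1)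
    (hq : ∀ a, q a ∈ Set.Icc (0 : ℝ) 1) :
    e2 1 (del γ ν (∑ a, p a * q a)) ≤ ∑ a, p a * e2 1 (del γ ν (q a)) := by
  obtain ⟨z, hz⟩ : ∃ z : ℝ → ℂ, z = fun q =>
      ⟨2 * √(γ * (1 - γ)) * (q - ν), 2 * √(γ * (ν * (1 - ν)))⟩ := ⟨_, rfl⟩
  have n1 : ∀ q, ‖z q‖ ^ 2 / 4 = del γ ν q := fun q => by
    have a := Real.mul_self_sqrt (mul_nonneg hγ.1 (sub_nonneg.2 hγ.2))
    have b := Real.mul_self_sqrt (mul_nonneg hγ.1 (mul_nonneg hν.1 (sub_nonneg.2 hν.2)))
    rw [← Complex.normSq_eq_norm_sq, hz, Complex.normSq_mk, del_eq]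
    linear_combination (q - ν) ^ 2 * a + b
  have n2 : ∀ a, ‖z (q a)‖ ∈ Set.Icc (0 : ℝ) 1 := fun a => ⟨norm_nonneg _, by
    have := del_le (ν := ν) hγ (hq a)
    rw [← n1] at this
    nlinarith [norm_nonneg (z (q a))]⟩
  have J1 := convex_E.map_sum_le (t := univ) (w := p) (p := fun a => ‖z (q a)‖)
    (fun a _ => hp a) h1 fun a _ => n2 a
  simp only [smul_eq_mul, n1] at J1
  refine le_trans ?_ J1
  have e : z (∑ a, p a * q a) = ∑ a, (p a : ℂ) * z (q a) := by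
    apply Complex.ext
    · rw [Complex.re_sum]
      simp only [hz, Complex.re_ofReal_mul]
      have : ∀ a, p a * (2 * √(γ * (1 - γ)) * (q a - ν)) =
          2 * √(γ * (1 - γ)) * (p a * q a) - 2 * √(γ * (1 - γ)) * ν * p a := fun a => by ring
      simp only [this, sum_sub_distrib, ← mul_sum, h1]
      ring
    · rw [Complex.im_sum]
      simp only [hz, Complex.im_ofReal_mul, ← sum_mul, h1, one_mul]
  have n3 : ‖z (∑ a, p a * q a)‖ ≤ ∑ a, p a * ‖z (q a)‖ := by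
    rw [e]
    refine (norm_sum_le _ _).trans (le_of_eq (sum_congr rfl fun a _ => ?_))
    rw [norm_mul, Complex.norm_real, Real.norm_of_nonneg (hp a)]
  have n4 : ∑ a, p a * ‖z (q a)‖ ≤ 1 := by
    rw [← h1]
    exact sum_le_sum fun a _ => mul_le_of_le_one_right (hp a) (n2 a).2
  have n5 := norm_nonneg (z (∑ a, p a * q a))
  refine e2_mono zero_le_one (del_nonneg hγ hν _) ?_ (by nlinarith)
  rw [← n1]
  gcongr

end Vale.Agent.P358
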