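import Mathlib

namespace Vale.Agent.P358

open scoped ComplexOrder

/-- von Neumann entropy in bits: `-∑ λ log₂ λ` over the eigenvalues. -/
noncomputable def entropy {n : Type} [Fintype n] [DecidableEq n] (ρ : Matrix n n ℂ) : ℝ :=
  if h : ρ.IsHermitian then -∑ i, h.eigenvalues i * Real.logb 2 (h.eigenvalues i) else 0

/-- density matrix -/
def IsState {n : Type} [Fintype n] (ρ : Matrix n n ℂ) : Prop := ρ.PosSemidef ∧ ρ.trace = 1

/-- the Holevo quantities of all finite input ensembles -/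
def holevoSet {m n : Type} [Fintype m] [Fintype n] [DecidableEq n]
    (N : Matrix m m ℂ → Matrix n n ℂ) : Set ℝ :=
  {x | ∃ (k : ℕ) (q : Fin k → ℝ) (ρ : Fin k → Matrix m m ℂ), (∀ a, 0 ≤ q a) ∧ ∑ a, q a = 1 ∧
    (∀ a, IsState (ρ a)) ∧
    x = entropy (∑ a, (q a : ℂ) • N (ρ a)) - ∑ a, q a * entropy (N (ρ a))}

/-- Holevo capacity -/
noncomputable def holevo {m n : Type} [Fintype m] [Fintype n] [DecidableEq n]
    (N : Matrix m m ℂ → Matrix n n ℂ) : ℝ := sSup (holevoSet N)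

/-- the generalized amplitude-damping channel, as a linear map on all `2 × 2` matrices -/
noncomputable def gad (γ ν : ℝ) (ρ : Matrix (Fin 2) (Fin 2) ℂ) : Matrix (Fin 2) (Fin 2) ℂ :=
  !![(1 - γ * ν) * ρ 0 0 + γ * (1 - ν) * ρ 1 1, (√(1 - γ) : ℝ) * ρ 0 1;
    (√(1 - γ) : ℝ) * ρ 1 0, γ * ν * ρ 0 0 + (1 - γ + γ * ν) * ρ 1 1]

/-- the `n`-fold tensor power of a linear map on qubit matrices -/
noncomputable def tensorPow (N : Matrix (Fin 2) (Fin 2) ℂ → Matrix (Fin 2) (Fin 2) ℂ) (n : ℕ)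
    (ρ : Matrix (Fin n → Fin 2) (Fin n → Fin 2) ℂ) : Matrix (Fin n → Fin 2) (Fin n → Fin 2) ℂ :=
  Matrix.of fun x y => ∑ u, ∑ v, (∏ i, N (Matrix.single (u i) (v i) 1) (x i) (y i)) * ρ u v

/-- the regularized Holevo capacity -/
noncomputable def capacity (N : Matrix (Fin 2) (Fin 2) ℂ → Matrix (Fin 2) (Fin 2) ℂ) : ℝ :=
  sSup {x | ∃ n : ℕ, 1 ≤ n ∧ x = 1 / (n : ℝ) * holevo (tensorPow N n)}

/-- binary entropy in bits -/
noncomputable def h2 (p : ℝ) : ℝ := -(p * Real.logb 2 p) - (1 - p) * Real.logb 2 (1 - p)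

end Vale.Agent.P358
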