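import Vale.Agent.P358.Ent

namespace Vale.Agent.P358

open Real Finset Matrix
open scoped ComplexOrder

set_option linter.unusedSectionVars false

variable {m n k l : Type} [Fintype m] [Fintype n] [Fintype k] [Fintype l]
  [DecidableEq m] [DecidableEq n] [DecidableEq k] [DecidableEq l]

lemma diag_conj (E : Matrix m n ℂ) (z : m → ℝ) (i : n) :
    ((Eᴴ * dg z * E) i i).re = ∑ j, Complex.normSq (E j i) * z j := by
  rw [mul_apply, Complex.re_sum]
  refine sum_congr rfl fun j _ => ?_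
  simp only [dg, mul_diagonal, conjTranspose_apply]
  simp [Complex.normSq_apply]; ring

lemma diag_conj' (E : Matrix m n ℂ) (z : n → ℝ) (i : m) :
    ((E * dg z * Eᴴ) i i).re = ∑ j, Complex.normSq (E i j) * z j := by
  have := diag_conj Eᴴ z i
  rw [conjTranspose_conjTranspose] at this
  rw [this]
  simp [conjTranspose_apply]

lemma col_norm (E : Matrix m n ℂ) (i : n) :
    ((Eᴴ * E) i i).re = ∑ j, Complex.normSq (E j i) := by
  have := diag_conj E (fun _ => 1) i
  simpa [dg_one] using this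

lemma row_norm (E : Matrix m n ℂ) (i : m) :
    ((E * Eᴴ) i i).re = ∑ j, Complex.normSq (E i j) := by
  have := diag_conj' E (fun _ => 1) i
  simpa [dg_one] using this

lemma dg_pd {d : n → ℝ} (h : ∀ i, 0 < d i) : (dg d).PosDef :=
  PosDef.diagonal fun i => by simpa using h i

lemma log_jensen {ι : Type*} [Fintype ι] (p z : ι → ℝ) (hp : ∀ j, 0 ≤ p j) (h1 : ∑ j, p j = 1)
    (hz : ∀ j, 0 < z j) {μ : ℝ} (hμ : 0 < μ) (e : ∑ j, p j * z j ≤ μ) :
    ∑ j, p j * Real.log (z j) ≤ Real.log μ := by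
  have h2 : ∀ j, p j * Real.log (z j) ≤ p j * Real.log μ + (p j * z j) / μ - p j := fun j => by
    have := Real.log_le_sub_one_of_pos (div_pos (hz j) hμ)
    rw [Real.log_div (hz j).ne' hμ.ne'] at this
    have h3 := mul_le_mul_of_nonneg_left this (hp j)
    rw [mul_div_assoc]; linarith
  refine (sum_le_sum fun j _ => h2 j).trans ?_
  rw [sum_sub_distrib, sum_add_distrib, ← sum_mul, ← sum_div, h1]
  have := (div_le_one hμ).2 e
  linarith

lemma log_det_spec {N : Matrix n n ℂ} (h : N.PosDef) :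
    Real.log (det N).re = ∑ i, Real.log (h.1.eigenvalues i) := by
  rw [h.1.det_eq_prod_eigenvalues, ← Real.log_prod fun i _ => (h.eigenvalues_pos i).ne']
  congr 1
  generalize h.1.eigenvalues = d
  show (∏ i, ((d i : ℝ) : ℂ)).re = _
  rw [← Complex.ofReal_prod, Complex.ofReal_re]

lemma jensen_det {E : Matrix m n ℂ} (hE : Eᴴ * E = 1) {z : m → ℝ} (hz : ∀ j, 0 < z j) :
    ∑ j, ((E * Eᴴ) j j).re * Real.log (z j) ≤ Real.log (det (Eᴴ * dg z * E)).re := by
  have hN : (Eᴴ * dg z * E).PosDef := by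
    refine (dg_pd hz).conjTranspose_mul_mul_same fun x y hxy => ?_
    have := congrArg (fun v => Eᴴ *ᵥ v) hxy
    simpa [mulVec_mulVec, hE] using this
  obtain ⟨S, h1, h2, h3⟩ := spec hN.1
  rw [log_det_spec hN]
  have h0 := hN.eigenvalues_pos
  generalize hN.1.eigenvalues = μ at h3 h0
  have e1 : (E * S)ᴴ * dg z * (E * S) = dg μ := by
    rw [conjTranspose_mul, show Sᴴ * Eᴴ * dg z * (E * S) = Sᴴ * (Eᴴ * dg z * E) * S by
      simp only [Matrix.mul_assoc], h3,
      show Sᴴ * (S * dg μ * Sᴴ) * S = (Sᴴ * S) * dg μ * (Sᴴ * S) by simp only [Matrix.mul_assoc],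
      h1]
    simp
  have e2 : (E * S)ᴴ * (E * S) = 1 := by
    rw [conjTranspose_mul, show Sᴴ * Eᴴ * (E * S) = Sᴴ * (Eᴴ * E) * S by
      simp only [Matrix.mul_assoc], hE, Matrix.mul_one, h1]
  have e3 : (E * S) * (E * S)ᴴ = E * Eᴴ := by
    rw [conjTranspose_mul, show E * S * (Sᴴ * Eᴴ) = E * (S * Sᴴ) * Eᴴ by
      simp only [Matrix.mul_assoc], h2, Matrix.mul_one]
  rw [← e3]
  generalize E * S = F at e1 e2
  simp only [row_norm, sum_mul]
  rw [sum_comm]
  refine sum_le_sum fun i _ => log_jensen _ _ (fun j => Complex.normSq_nonneg _) ?_ hz (h0 i) ?_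
  · rw [← col_norm, e2]; simp
  · rw [← diag_conj, e1]; simp [dg]

lemma inv_spec {U : Matrix n n ℂ} (h1 : Uᴴ * U = 1) (h2 : U * Uᴴ = 1) {d : n → ℝ}
    (hd : ∀ i, 0 < d i) : (U * dg d * Uᴴ)⁻¹ = U * dg (fun i => (d i)⁻¹) * Uᴴ := by
  refine inv_eq_right_inv ?_
  rw [show U * dg d * Uᴴ * (U * dg (fun i => (d i)⁻¹) * Uᴴ) =
    U * (dg d * (Uᴴ * U) * dg (fun i => (d i)⁻¹)) * Uᴴ by simp only [Matrix.mul_assoc], h1,
    Matrix.mul_one, dg_mul]
  simp only [fun i => mul_inv_cancel₀ (hd i).ne', dg_one, Matrix.mul_one, h2]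

lemma log_diag_le {V : Matrix n n ℂ} (h2 : V * Vᴴ = 1) {η : n → ℝ} (hη : ∀ i, 0 < η i)
    (h : ∀ i, ((V * dg η * Vᴴ) i i).re ≤ 1) (w : n → ℝ) (hw : ∀ i, 0 ≤ w i) :
    ∑ j, ((Vᴴ * dg w * V) j j).re * Real.log (η j) ≤ 0 := by
  simp only [diag_conj, sum_mul]
  rw [sum_comm]
  refine sum_nonpos fun i _ => ?_
  have := log_jensen (fun j => Complex.normSq (V i j)) η (fun j => Complex.normSq_nonneg _)
    (by rw [← row_norm, h2]; simp) hη one_pos (by rw [← diag_conj']; exact h i)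
  rw [Real.log_one] at this
  have h3 := mul_nonpos_of_nonneg_of_nonpos (hw i) this
  rw [mul_sum] at h3
  exact le_of_eq_of_le (sum_congr rfl fun j _ => by ring) h3

lemma det_norm {X Y : Matrix n n ℂ} (hX : X.PosDef) (hY : Y.PosDef) (dX : ∀ i, (X i i).re ≤ 1)
    (dY : ∀ i, (Y i i).re ≤ 1) (c s : n → ℝ) (hcs : ∀ i, c i * c i + s i * s i = 1) :
    Real.log (det Y).re ≤ Real.log (det (dg c * Y * dg c + dg s * X⁻¹ * dg s)).re := by
  obtain ⟨U, u1, u2, u3⟩ := spec hX.1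
  obtain ⟨V, v1, v2, v3⟩ := spec hY.1
  rw [log_det_spec hY]
  have hξ := hX.eigenvalues_pos
  have hη := hY.eigenvalues_pos
  generalize hX.1.eigenvalues = ξ at u3 hξ
  generalize hY.1.eigenvalues = η at v3 hη
  have hE : (fromRows (Vᴴ * dg c) (Uᴴ * dg s))ᴴ * fromRows (Vᴴ * dg c) (Uᴴ * dg s) = 1 := by
    rw [conjTranspose_fromRows_eq_fromCols_conjTranspose, fromCols_mul_fromRows]
    simp only [conjTranspose_mul, dg_conj, conjTranspose_conjTranspose]
    rw [show dg c * V * (Vᴴ * dg c) = dg c * (V * Vᴴ) * dg c by simp only [Matrix.mul_assoc],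
      show dg s * U * (Uᴴ * dg s) = dg s * (U * Uᴴ) * dg s by simp only [Matrix.mul_assoc],
      u2, v2, Matrix.mul_one, Matrix.mul_one, dg_mul, dg_mul]
    ext i j
    by_cases h : i = j
    · subst h
      simp only [dg, Matrix.add_apply, diagonal_apply_eq, one_apply_eq]
      rw [← Complex.ofReal_add, hcs]; simp
    · simp [dg, h]
  have J := jensen_det hE (z := Sum.elim η fun i => (ξ i)⁻¹)
    (by rintro (i | i) <;> simp [hξ, hη])
  have e1 : (fromRows (Vᴴ * dg c) (Uᴴ * dg s))ᴴ * dg (Sum.elim η fun i => (ξ i)⁻¹) *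
      fromRows (Vᴴ * dg c) (Uᴴ * dg s) = dg c * Y * dg c + dg s * X⁻¹ * dg s := by
    have : dg (Sum.elim η fun i => (ξ i)⁻¹) = fromBlocks (dg η) 0 0 (dg fun i => (ξ i)⁻¹) := by
      unfold dg; rw [fromBlocks_diagonal]; congr 1; ext (i | i) <;> rfl
    rw [this, conjTranspose_fromRows_eq_fromCols_conjTranspose, fromCols_mul_fromBlocks,
      fromCols_mul_fromRows, u3, inv_spec u1 u2 hξ, v3]
    simp only [conjTranspose_mul, dg_conj, conjTranspose_conjTranspose, Matrix.mul_zero,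
      add_zero, zero_add, Matrix.mul_assoc]
  rw [e1, conjTranspose_fromRows_eq_fromCols_conjTranspose, fromRows_mul_fromCols,
    Fintype.sum_sum_type] at J
  simp only [fromBlocks_apply₁₁, fromBlocks_apply₂₂, Sum.elim_inl, Sum.elim_inr, conjTranspose_mul,
    dg_conj, conjTranspose_conjTranspose, Real.log_inv] at J
  rw [show Vᴴ * dg c * (dg c * V) = Vᴴ * (dg c * dg c) * V by simp only [Matrix.mul_assoc],
    show Uᴴ * dg s * (dg s * U) = Uᴴ * (dg s * dg s) * U by simp only [Matrix.mul_assoc],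
    dg_mul, dg_mul] at J
  have a1 := log_diag_le u2 hξ (u3 ▸ dX) (fun i => s i * s i) fun i => mul_self_nonneg _
  have a2 := log_diag_le v2 hη (v3 ▸ dY) (fun i => s i * s i) fun i => mul_self_nonneg _
  have a3 : ∀ j, ((Vᴴ * dg (fun i => c i * c i) * V) j j).re =
      1 - ((Vᴴ * dg (fun i => s i * s i) * V) j j).re := fun j => by
    have := col_norm V j
    rw [v1, one_apply_eq, Complex.one_re] at this
    rw [diag_conj, diag_conj, this, ← sum_sub_distrib]
    exact sum_congr rfl fun i _ => by linear_combination (Complex.normSq (V i j)) * hcs i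
  simp only [a3, sub_mul, one_mul, sum_sub_distrib, mul_neg, sum_neg_distrib] at J
  linarith

lemma dg_conj_apply (a b : n → ℝ) (X : Matrix n n ℂ) (i : n) :
    ((dg a * X * dg b) i i).re = a i * b i * (X i i).re := by
  simp only [dg, mul_diagonal, diagonal_mul]
  simp; ring

lemma log_det_scale {a : n → ℝ} (ha : ∀ i, 0 < a i) {Y : Matrix n n ℂ} (hY : Y.PosDef) :
    Real.log (det (dg a * Y * dg a)).re = Real.log (det Y).re + ∑ i, Real.log (a i * a i) := by
  rw [det_mul_comm, ← Matrix.mul_assoc, dg_mul, det_mul, add_comm,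
    log_det_mul (dg_pd fun i => mul_pos (ha i) (ha i)) hY, det_dg, Complex.ofReal_re,
    Real.log_prod fun i _ => (mul_pos (ha i) (ha i)).ne']

lemma pd_scale {a : n → ℝ} (ha : ∀ i, 0 < a i) {Y : Matrix n n ℂ} (hY : Y.PosDef) :
    (dg a * Y * dg a).PosDef := by
  have := hY.mul_mul_conjTranspose_same (B := dg a)
    (vecMul_injective_of_isUnit (dg_pd ha).isUnit)
  rwa [dg_conj] at this

lemma det_main {X Y : Matrix n n ℂ} (hX : X.PosDef) (hY : Y.PosDef) (d : n → ℝ) :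
    Real.log (det Y).re + ∑ i, Real.log (1 + d i * d i / ((X i i).re * (Y i i).re)) ≤
      Real.log (det (Y + dg d * X⁻¹ * dg d)).re := by
  obtain ⟨x, hx⟩ : ∃ x : n → ℝ, x = fun i => √((X i i).re) := ⟨_, rfl⟩
  obtain ⟨y, hy⟩ : ∃ y : n → ℝ, y = fun i => √((Y i i).re) := ⟨_, rfl⟩
  have pX : ∀ i, 0 < (X i i).re := fun i => (Complex.pos_iff.1 hX.diag_pos).1
  have pY : ∀ i, 0 < (Y i i).re := fun i => (Complex.pos_iff.1 hY.diag_pos).1
  have x0 : ∀ i, 0 < x i := fun i => by rw [hx]; exact Real.sqrt_pos.2 (pX i)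
  have y0 : ∀ i, 0 < y i := fun i => by rw [hy]; exact Real.sqrt_pos.2 (pY i)
  have x2 : ∀ i, (X i i).re = x i * x i := fun i => by
    rw [hx]; exact (Real.mul_self_sqrt (pX i).le).symm
  have y2 : ∀ i, (Y i i).re = y i * y i := fun i => by
    rw [hy]; exact (Real.mul_self_sqrt (pY i).le).symm
  obtain ⟨r, hr⟩ : ∃ r : n → ℝ, r = fun i => √(1 + d i * d i / (x i * x i * (y i * y i))) :=
    ⟨_, rfl⟩
  have rp : ∀ i, 0 < 1 + d i * d i / (x i * x i * (y i * y i)) := fun i => by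
    have := x0 i; have := y0 i; have := mul_self_nonneg (d i); positivity
  have r0 : ∀ i, 0 < r i := fun i => by rw [hr]; exact Real.sqrt_pos.2 (rp i)
  have r2 : ∀ i, r i * r i = 1 + d i * d i / (x i * x i * (y i * y i)) := fun i => by
    rw [hr]; exact Real.mul_self_sqrt (rp i).le
  have xi : ∀ i, 0 < (x i)⁻¹ := fun i => inv_pos.2 (x0 i)
  have yi : ∀ i, 0 < (y i)⁻¹ := fun i => inv_pos.2 (y0 i)
  have N := det_norm (pd_scale xi hX) (pd_scale yi hY)
    (fun i => by rw [dg_conj_apply, x2]; have := x0 i; field_simp; rfl)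
    (fun i => by rw [dg_conj_apply, y2]; have := y0 i; field_simp; rfl)
    (fun i => (r i)⁻¹) (fun i => (r i)⁻¹ * (d i / (x i * y i)))
    (fun i => by
      have h1 := r2 i
      have := x0 i; have := y0 i; have := r0 i
      field_simp at h1 ⊢
      linarith)
  have e1 : (dg (fun i => (x i)⁻¹) * X * dg (fun i => (x i)⁻¹))⁻¹ = dg x * X⁻¹ * dg x := by
    refine inv_eq_right_inv ?_
    rw [show dg (fun i => (x i)⁻¹) * X * dg (fun i => (x i)⁻¹) * (dg x * X⁻¹ * dg x) =
      dg (fun i => (x i)⁻¹) * (X * (dg (fun i => (x i)⁻¹) * dg x) * X⁻¹) * dg x by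
        simp only [Matrix.mul_assoc], dg_mul]
    simp only [fun i => inv_mul_cancel₀ (x0 i).ne', dg_one, Matrix.mul_one]
    rw [mul_nonsing_inv _ ((isUnit_iff_isUnit_det _).1 hX.isUnit), Matrix.mul_one, dg_mul]
    simp only [fun i => inv_mul_cancel₀ (x0 i).ne', dg_one]
  have e2 : dg (fun i => (r i)⁻¹) * (dg (fun i => (y i)⁻¹) * Y * dg (fun i => (y i)⁻¹)) *
      dg (fun i => (r i)⁻¹) + dg (fun i => (r i)⁻¹ * (d i / (x i * y i))) * (dg x * X⁻¹ * dg x) *
      dg (fun i => (r i)⁻¹ * (d i / (x i * y i))) =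
      dg (fun i => (r i)⁻¹ * (y i)⁻¹) * (Y + dg d * X⁻¹ * dg d) *
        dg (fun i => (r i)⁻¹ * (y i)⁻¹) := by
    ext i j
    simp only [dg, Matrix.add_apply, mul_diagonal, diagonal_mul]
    have h1 : (x i : ℂ) ≠ 0 := by exact_mod_cast (x0 i).ne'
    have h2 : (x j : ℂ) ≠ 0 := by exact_mod_cast (x0 j).ne'
    push_cast
    field_simp
  have hP : (Y + dg d * X⁻¹ * dg d).PosDef := by
    have := hX.inv.posSemidef.mul_mul_conjTranspose_same (dg d)
    rw [dg_conj] at this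
    exact hY.add_posSemidef this
  rw [e1, e2, log_det_scale yi hY,
    log_det_scale (fun i => mul_pos (inv_pos.2 (r0 i)) (yi i)) hP] at N
  have e3 : ∀ i, Real.log ((r i)⁻¹ * (y i)⁻¹ * ((r i)⁻¹ * (y i)⁻¹)) =
      Real.log ((y i)⁻¹ * (y i)⁻¹) - Real.log (1 + d i * d i / ((X i i).re * (Y i i).re)) :=
    fun i => by
      have := y0 i; have := r0 i
      rw [x2, y2, ← r2, ← Real.log_div (by positivity) (by positivity)]
      congr 1; field_simp
  simp only [e3, sum_sub_distrib] at N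
  linarith

lemma svd (P : Matrix n n ℂ) : ∃ (U V : Matrix n n ℂ) (d : n → ℝ), Uᴴ * U = 1 ∧ U * Uᴴ = 1 ∧
    Vᴴ * V = 1 ∧ V * Vᴴ = 1 ∧ P = U * dg d * Vᴴ := by
  have hP := posSemidef_conjTranspose_mul_self P
  obtain ⟨V, v1, v2, v3⟩ := spec hP.1
  have h0 := hP.eigenvalues_nonneg
  generalize hP.1.eigenvalues = a at v3 h0
  have hB : (P * V)ᴴ * (P * V) = dg a := by
    rw [conjTranspose_mul, show Vᴴ * Pᴴ * (P * V) = Vᴴ * (Pᴴ * P) * V by
      simp only [Matrix.mul_assoc], v3,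
      show Vᴴ * (V * dg a * Vᴴ) * V = (Vᴴ * V) * dg a * (Vᴴ * V) by simp only [Matrix.mul_assoc],
      v1]
    simp
  obtain ⟨B, hBe⟩ : ∃ B, B = P * V := ⟨_, rfl⟩
  rw [← hBe] at hB
  obtain ⟨u, hu⟩ : ∃ u : n → EuclideanSpace ℂ n,
      u = fun i => WithLp.toLp 2 fun j => B j i * (((√(a i))⁻¹ : ℝ) : ℂ) := ⟨_, rfl⟩
  have ho : Orthonormal ℂ (Set.domRestrict {i | a i ≠ 0} u) := by
    rw [orthonormal_iff_ite]
    rintro ⟨i, hi⟩ ⟨j, hj⟩
    have h1 : inner ℂ (u i) (u j) =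
        (((√(a i))⁻¹ : ℝ) : ℂ) * (((√(a j))⁻¹ : ℝ) : ℂ) * (Bᴴ * B) i j := by
      rw [hu, PiLp.inner_apply, mul_apply, mul_sum]
      refine sum_congr rfl fun x _ => ?_
      simp [conjTranspose_apply]; ring
    simp only [Set.domRestrict_apply, h1, hB, Subtype.mk.injEq]
    split_ifs with h
    · subst h
      simp only [dg, diagonal_apply_eq]
      have h2 : 0 < √(a i) := Real.sqrt_pos.2 (lt_of_le_of_ne (h0 i) (Ne.symm hi))
      have h3 := Real.mul_self_sqrt (h0 i)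
      rw [← Complex.ofReal_mul, ← Complex.ofReal_mul]
      conv_lhs => rw [← h3]
      rw [Real.sqrt_mul_self h2.le]
      norm_cast
      field_simp
    · simp [dg, h]
  obtain ⟨b, hb⟩ := ho.exists_orthonormalBasis_extension_of_card_eq (by simp)
  obtain ⟨U, hU⟩ : ∃ U : Matrix n n ℂ, U = Matrix.of fun j i => b i j := ⟨_, rfl⟩
  have u1 : Uᴴ * U = 1 := by
    ext i j
    have := orthonormal_iff_ite.1 b.orthonormal i j
    rw [PiLp.inner_apply] at this
    rw [mul_apply, one_apply, ← this, hU]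
    refine sum_congr rfl fun x _ => ?_
    simp [conjTranspose_apply]; ring
  refine ⟨U, V, fun i => √(a i), u1, mul_eq_one_comm.1 u1, v1, v2, ?_⟩
  have e : B = U * dg fun i => √(a i) := by
    ext j i
    simp only [dg, mul_diagonal]
    by_cases h : a i = 0
    · have h1 := col_norm B i
      rw [hB] at h1
      simp only [dg, diagonal_apply_eq, Complex.ofReal_re, h] at h1
      have h2 := (sum_eq_zero_iff_of_nonneg fun j _ => Complex.normSq_nonneg (B j i)).1 h1.symm j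
        (mem_univ j)
      simp [h, Complex.normSq_eq_zero.1 h2]
    · have h2 : 0 < √(a i) := Real.sqrt_pos.2 (lt_of_le_of_ne (h0 i) (Ne.symm h))
      have h3 : ((√(a i) : ℝ) : ℂ) ≠ 0 := by exact_mod_cast h2.ne'
      rw [hU, of_apply, hb i h, hu]
      push_cast
      field_simp
  rw [← e, hBe, Matrix.mul_assoc, v2, Matrix.mul_one]

end Vale.Agent.P358
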