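import Vale.Agent.P358.Rep

namespace Vale.Agent.P358

open Real Finset Matrix
open scoped ComplexOrder

set_option linter.unusedSectionVars false

variable {m n k l : Type} [Fintype m] [Fintype n] [Fintype k] [Fintype l]
  [DecidableEq m] [DecidableEq n] [DecidableEq k] [DecidableEq l]

/-- von Neumann entropy in nats. -/
noncomputable def vN (M : Matrix n n ℂ) : ℝ :=
  if h : M.IsHermitian then ∑ i, negMulLog (h.eigenvalues i) else 0

/-- real trace -/
noncomputable def tr (M : Matrix n n ℂ) : ℝ := M.trace.re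

/-- log-determinant profile -/
noncomputable def Lt (M : Matrix n n ℂ) (t : ℝ) : ℝ :=
  Real.log (det (1 + ((t⁻¹ : ℝ) : ℂ) • M)).re

/-- real diagonal matrix -/
def dg (d : n → ℝ) : Matrix n n ℂ := diagonal fun i => (d i : ℂ)

omit [Fintype n] in
lemma dg_conj (d : n → ℝ) : (dg d)ᴴ = dg d := by
  unfold dg; rw [diagonal_conjTranspose]; congr 1; ext i; simp

lemma dg_mul (d e : n → ℝ) : dg d * dg e = dg fun i => d i * e i := by
  unfold dg; rw [diagonal_mul_diagonal]; congr 1; ext i; simp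

omit [Fintype n] in
lemma dg_one : dg (fun _ : n => 1) = 1 := by unfold dg; simp

lemma det_dg (d : n → ℝ) : det (dg d) = ((∏ i, d i : ℝ) : ℂ) := by
  unfold dg; rw [det_diagonal]; simp

lemma tr_dg (d : n → ℝ) : tr (dg d) = ∑ i, d i := by
  unfold dg tr; rw [trace_diagonal]; simp

omit [Fintype n] in
lemma dg_psd {d : n → ℝ} (h : ∀ i, 0 ≤ d i) : (dg d).PosSemidef :=
  PosSemidef.diagonal fun i => by simpa using h i

lemma spec {M : Matrix n n ℂ} (h : M.IsHermitian) :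
    ∃ U : Matrix n n ℂ, Uᴴ * U = 1 ∧ U * Uᴴ = 1 ∧ M = U * dg h.eigenvalues * Uᴴ := by
  refine ⟨h.eigenvectorUnitary, ?_, ?_, ?_⟩
  · exact Unitary.coe_star_mul_self h.eigenvectorUnitary
  · exact Unitary.coe_mul_star_self h.eigenvectorUnitary
  · conv_lhs => rw [h.spectral_theorem, Unitary.conjStarAlgAut_apply]
    rfl

omit [DecidableEq n] in
lemma tr_add (A B : Matrix n n ℂ) : tr (A + B) = tr A + tr B := by simp [tr]

omit [DecidableEq n] in
lemma tr_smul (c : ℝ) (A : Matrix n n ℂ) : tr ((c : ℂ) • A) = c * tr A := by simp [tr]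

omit [DecidableEq n] in
lemma tr_sum {ι : Type*} (S : Finset ι) (A : ι → Matrix n n ℂ) :
    tr (∑ i ∈ S, A i) = ∑ i ∈ S, tr (A i) := by simp [tr, trace_sum]

omit [DecidableEq n] [DecidableEq m] in
lemma tr_comm (A : Matrix m n ℂ) (B : Matrix n m ℂ) : tr (A * B) = tr (B * A) := by
  unfold tr; rw [trace_mul_comm]

omit [DecidableEq n] in
lemma tr_nonneg {A : Matrix n n ℂ} (h : A.PosSemidef) : 0 ≤ tr A :=
  (Complex.nonneg_iff.1 h.trace_nonneg).1

omit [DecidableEq n] in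
lemma trace_eq {A : Matrix n n ℂ} (h : A.PosSemidef) : A.trace = (tr A : ℂ) :=
  Complex.ext rfl (by simpa using (Complex.nonneg_iff.1 h.trace_nonneg).2.symm)

omit [DecidableEq m] in
lemma tr_conj {E : Matrix m n ℂ} (hE : Eᴴ * E = 1) (M : Matrix n n ℂ) : tr (E * M * Eᴴ) = tr M := by
  rw [tr_comm, ← Matrix.mul_assoc, hE, Matrix.one_mul]

lemma Lt_comm (A : Matrix m n ℂ) (B : Matrix n m ℂ) : Lt (A * B) = Lt (B * A) := by
  ext t; unfold Lt
  rw [← Matrix.smul_mul, det_one_add_mul_comm, Matrix.mul_smul]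

lemma Lt_conj {E : Matrix m n ℂ} (hE : Eᴴ * E = 1) (M : Matrix n n ℂ) : Lt (E * M * Eᴴ) = Lt M := by
  rw [Lt_comm, ← Matrix.mul_assoc, hE, Matrix.one_mul]

omit [Fintype n] in
lemma one_add_dg (c : ℝ) (d : n → ℝ) : 1 + (c : ℂ) • dg d = dg fun i => 1 + c * d i := by
  ext i j; by_cases h : i = j <;> simp [dg, h]

lemma Lt_dg {d : n → ℝ} (h : ∀ i, 0 ≤ d i) {t : ℝ} (ht : 0 < t) :
    Lt (dg d) t = ∑ i, Real.log (1 + t⁻¹ * d i) := by
  unfold Lt
  rw [one_add_dg, det_dg, Complex.ofReal_re, Real.log_prod]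
  intro i _
  have := h i
  positivity

lemma rep_dg {d : n → ℝ} (h : ∀ i, 0 ≤ d i) :
    Rep (Lt (dg d)) (tr (dg d)) (∑ i, negMulLog (d i)) :=
  (Rep.sum univ fun i _ => Rep.base (h i)).congr (fun _ ht => (Lt_dg h ht).symm) (tr_dg d).symm rfl

lemma rep_vN {M : Matrix n n ℂ} (h : M.PosSemidef) : Rep (Lt M) (tr M) (vN M) := by
  obtain ⟨U, h1, -, h3⟩ := spec h.1
  have := rep_dg h.eigenvalues_nonneg
  rw [← Lt_conj h1, ← tr_conj h1, ← h3] at this
  unfold vN
  rwa [dif_pos h.1]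

lemma vN_dg {d : n → ℝ} (h : ∀ i, 0 ≤ d i) : vN (dg d) = ∑ i, negMulLog (d i) :=
  (rep_vN (dg_psd h)).eq (rep_dg h) rfl fun _ _ => rfl

lemma vN_conj {E : Matrix m n ℂ} (hE : Eᴴ * E = 1) {M : Matrix n n ℂ} (h : M.PosSemidef) :
    vN (E * M * Eᴴ) = vN M :=
  (rep_vN (h.mul_mul_conjTranspose_same E)).eq (rep_vN h) (tr_conj hE M)
    fun _ _ => by rw [Lt_conj hE]

lemma vN_comm (A : Matrix m n ℂ) : vN (A * Aᴴ) = vN (Aᴴ * A) :=
  (rep_vN (posSemidef_self_mul_conjTranspose A)).eq (rep_vN (posSemidef_conjTranspose_mul_self A))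
    (tr_comm _ _) fun _ _ => by rw [Lt_comm]

lemma vN_sub (e : m ≃ n) {M : Matrix n n ℂ} (h : M.PosSemidef) : vN (M.submatrix e e) = vN M := by
  refine (rep_vN (h.submatrix e)).eq (rep_vN h) ?_ fun t _ => ?_
  · unfold tr trace
    rw [← Equiv.sum_comp e]; rfl
  · unfold Lt
    rw [← det_submatrix_equiv_self e (1 + _)]
    congr 3
    ext i j
    simp [one_apply]

lemma psd_smul {c : ℝ} (hc : 0 ≤ c) {M : Matrix n n ℂ} (h : M.PosSemidef) :
    ((c : ℂ) • M).PosSemidef := h.smul (by simpa using hc)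

lemma vN_smul {c : ℝ} (hc : 0 ≤ c) {M : Matrix n n ℂ} (h : M.PosSemidef) :
    vN ((c : ℂ) • M) = c * vN M + negMulLog c * tr M := by
  obtain ⟨U, h1, -, h3⟩ := spec h.1
  have h0 := h.eigenvalues_nonneg
  generalize h.1.eigenvalues = d at h3 h0
  have e : (c : ℂ) • M = U * dg (fun i => c * d i) * Uᴴ := by
    rw [h3, ← Matrix.smul_mul, ← Matrix.mul_smul]
    congr 2
    ext i j; by_cases h : i = j <;> simp [dg, h]
  have h4 : ∀ i, 0 ≤ c * d i := fun i => mul_nonneg hc (h0 i)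
  rw [e, h3, vN_conj h1 (dg_psd h4), vN_conj h1 (dg_psd h0), tr_conj h1, vN_dg h4, vN_dg h0,
    tr_dg, mul_sum, mul_sum, ← sum_add_distrib]
  exact sum_congr rfl fun i _ => by rw [negMulLog_mul]; ring

lemma pd_one_add {M : Matrix n n ℂ} (h : M.PosSemidef) {c : ℝ} (hc : 0 ≤ c) :
    (1 + (c : ℂ) • M).PosDef := PosDef.one.add_posSemidef (psd_smul hc h)

lemma det_re {M : Matrix n n ℂ} (h : M.PosDef) : det M = ((det M).re : ℂ) ∧ 0 < (det M).re := by
  have := Complex.pos_iff.1 h.det_pos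
  exact ⟨Complex.ext rfl (by simpa using this.2.symm), this.1⟩

lemma log_det_mul {A : Matrix m m ℂ} {B : Matrix n n ℂ} (hA : A.PosDef) (hB : B.PosDef) :
    Real.log (det A * det B).re = Real.log (det A).re + Real.log (det B).re := by
  rw [← Real.log_mul (det_re hA).2.ne' (det_re hB).2.ne']
  congr 1
  rw [(det_re hA).1, (det_re hB).1, ← Complex.ofReal_mul]
  simp only [Complex.ofReal_re]

omit [DecidableEq m] [DecidableEq n] in
lemma tr_blocks (A : Matrix m m ℂ) (B : Matrix m n ℂ) (C : Matrix n m ℂ) (D : Matrix n n ℂ) :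
    tr (fromBlocks A B C D) = tr A + tr D := by
  simp [tr, trace, Fintype.sum_sum_type]

lemma psd_blocks {A : Matrix m m ℂ} {D : Matrix n n ℂ} (hA : A.PosSemidef) (hD : D.PosSemidef) :
    (fromBlocks A 0 0 D).PosSemidef := by
  have e : fromBlocks A 0 0 D = fromRows (1 : Matrix m m ℂ) (0 : Matrix n m ℂ) * A *
      (fromRows (1 : Matrix m m ℂ) (0 : Matrix n m ℂ))ᴴ +
      fromRows (0 : Matrix m n ℂ) (1 : Matrix n n ℂ) * D *
      (fromRows (0 : Matrix m n ℂ) (1 : Matrix n n ℂ))ᴴ := by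
    rw [conjTranspose_fromRows_eq_fromCols_conjTranspose,
      conjTranspose_fromRows_eq_fromCols_conjTranspose, fromRows_mul _ _ A, fromRows_mul _ _ D,
      fromRows_mul_fromCols, fromRows_mul_fromCols, fromBlocks_add]
    simp
  rw [e]
  exact (hA.mul_mul_conjTranspose_same _).add (hD.mul_mul_conjTranspose_same _)

lemma vN_blocks {A : Matrix m m ℂ} {D : Matrix n n ℂ} (hA : A.PosSemidef) (hD : D.PosSemidef) :
    vN (fromBlocks A 0 0 D) = vN A + vN D := by
  refine (rep_vN (psd_blocks hA hD)).eq ((rep_vN hA).add (rep_vN hD)) (tr_blocks _ _ _ _)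
    fun t ht => ?_
  unfold Lt
  have hi : 0 ≤ t⁻¹ := by positivity
  rw [← log_det_mul (pd_one_add hA hi) (pd_one_add hD hi), ← det_fromBlocks_zero₂₁ _ 0,
    ← fromBlocks_one, fromBlocks_smul, fromBlocks_add]
  simp

lemma vN_two {M : Matrix (Fin 2) (Fin 2) ℂ} (h : M.PosSemidef) :
    vN M = e2 (tr M) (det M).re := by
  obtain ⟨U, h1, h2, h3⟩ := spec h.1
  have h0 := h.eigenvalues_nonneg
  generalize h.1.eigenvalues = d at h3 h0
  have e : det M = ((d 0 * d 1 : ℝ) : ℂ) := by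
    rw [h3, det_mul_comm, ← Matrix.mul_assoc, h1, Matrix.one_mul, det_dg, Fin.prod_univ_two]
  have e' : tr M = d 0 + d 1 := by rw [h3, tr_conj h1, tr_dg, Fin.sum_univ_two]
  have a := h0 0
  have b := h0 1
  rw [e, Complex.ofReal_re]
  refine (rep_vN h).eq (rep_e2 (tr_nonneg h) (mul_nonneg a b)
    (by rw [e']; nlinarith [sq_nonneg (d 0 - d 1)])) rfl fun t ht => ?_
  have hi : 0 < t⁻¹ := inv_pos.2 ht
  rw [e']
  conv_lhs => rw [h3, Lt_conj h1, Lt_dg h0 ht, Fin.sum_univ_two,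
    ← Real.log_mul (by positivity) (by positivity)]
  congr 1; ring

/-- homogeneous entropy -/
noncomputable def H (M : Matrix n n ℂ) : ℝ := vN M - negMulLog (tr M)

lemma H_smul {c : ℝ} (hc : 0 ≤ c) {M : Matrix n n ℂ} (h : M.PosSemidef) :
    H ((c : ℂ) • M) = c * H M := by
  unfold H
  rw [vN_smul hc h, tr_smul, negMulLog_mul]; ring

lemma H_one {M : Matrix n n ℂ} (h : tr M = 1) : H M = vN M := by simp [H, h]

lemma H_conj {E : Matrix m n ℂ} (hE : Eᴴ * E = 1) {M : Matrix n n ℂ} (h : M.PosSemidef) :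
    H (E * M * Eᴴ) = H M := by
  unfold H; rw [vN_conj hE h, tr_conj hE]

lemma exists_sqrt {M : Matrix n n ℂ} (h : M.PosSemidef) : ∃ T : Matrix n n ℂ, M = T * Tᴴ := by
  obtain ⟨U, -, -, h3⟩ := spec h.1
  have h0 := h.eigenvalues_nonneg
  generalize h.1.eigenvalues = d at h3 h0
  refine ⟨U * dg fun i => √(d i), ?_⟩
  rw [conjTranspose_mul, dg_conj, h3, Matrix.mul_assoc, Matrix.mul_assoc,
    ← Matrix.mul_assoc (dg fun i => √(d i)), dg_mul]
  simp only [fun i => Real.mul_self_sqrt (h0 i)]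

end Vale.Agent.P358
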