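import Vale.Agent.P358.Star

namespace Vale.Agent.P358

open Real Finset Matrix
open scoped ComplexOrder ComplexConjugate

set_option linter.unusedSectionVars false

variable {m n k l : Type} [Fintype m] [Fintype n] [Fintype k] [Fintype l]
  [DecidableEq m] [DecidableEq n] [DecidableEq k] [DecidableEq l]

/-- the channel acting on the block index -/
noncomputable def gb (γ ν : ℝ) (A X Y B : Matrix m m ℂ) : Matrix (m ⊕ m) (m ⊕ m) ℂ :=
  fromBlocks (((1 - γ * ν : ℝ) : ℂ) • A + ((γ * (1 - ν) : ℝ) : ℂ) • B) ((√(1 - γ) : ℝ) • X)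
    ((√(1 - γ) : ℝ) • Y) (((γ * ν : ℝ) : ℂ) • A + ((1 - γ + γ * ν : ℝ) : ℂ) • B)

/-- determinant of the output of a pure state of population `q` -/
def del (γ ν q : ℝ) : ℝ :=
  ((1 - γ) * q + γ * ν) * (1 - ((1 - γ) * q + γ * ν)) - (1 - γ) * q * (1 - q)

lemma del_eq (γ ν q : ℝ) : del γ ν q = γ * ((1 - γ) * (q - ν) ^ 2 + ν * (1 - ν)) := by
  unfold del; ring

lemma del_nonneg {γ ν : ℝ} (hγ : γ ∈ Set.Icc (0 : ℝ) 1) (hν : ν ∈ Set.Icc (0 : ℝ) 1) (q : ℝ) :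
    0 ≤ del γ ν q := by
  rw [del_eq]
  have := hγ.1; have := hν.1; have := sub_nonneg.2 hγ.2; have := sub_nonneg.2 hν.2
  positivity

lemma exists_d {γ ν : ℝ} (hγ : γ ∈ Set.Icc (0 : ℝ) 1) (hν : ν ∈ Set.Icc (0 : ℝ) 1) (q : ℝ) :
    ∃ d10 d11 d20 d21 a b : ℝ, d10 * d10 + d20 * d20 = 1 - γ * ν ∧
      d11 * d11 + d21 * d21 = 1 - γ + γ * ν ∧ d10 * d11 + d20 * d21 = √(1 - γ) ∧
      a * a = γ * ν ∧ b * b = γ * (1 - ν) ∧ d10 * d21 - d20 * d11 = a * b ∧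
      del γ ν q ≤ (-(a * d20) * (1 - q) + b * d11 * q) ^ 2 := by
  have hs := Real.mul_self_sqrt (sub_nonneg.2 hγ.2)
  have hg := Real.mul_self_sqrt hγ.1
  have h0 := Real.mul_self_sqrt hν.1
  have h1 := Real.mul_self_sqrt (sub_nonneg.2 hν.2)
  have p1 : 0 ≤ (1 - γ) * (q - ν) ^ 2 := mul_nonneg (sub_nonneg.2 hγ.2) (sq_nonneg _)
  have p2 : 0 ≤ ν * (1 - ν) := mul_nonneg hν.1 (sub_nonneg.2 hν.2)
  rw [del_eq]
  generalize √(1 - γ) = s at *
  generalize √γ = g at *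
  rcases (add_nonneg p1 p2).eq_or_lt with h | h
  · rw [← h, mul_zero]
    rcases mul_eq_zero.1 (show ν * (1 - ν) = 0 by linarith) with h | h
    · subst h
      exact ⟨1, s, 0, 0, 0, g, by ring, by linarith, by ring, by ring, by linarith, by ring,
        sq_nonneg _⟩
    · obtain rfl : ν = 1 := by linarith
      exact ⟨s, 1, 0, 0, g, 0, by linarith, by ring, by ring, by linarith, by ring, by ring,
        sq_nonneg _⟩
  · obtain ⟨r, hr⟩ : ∃ r : ℝ, r * r * ((1 - γ) * (q - ν) ^ 2 + ν * (1 - ν)) = 1 :=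
      ⟨(√((1 - γ) * (q - ν) ^ 2 + ν * (1 - ν)))⁻¹, by
        rw [← mul_inv, Real.mul_self_sqrt h.le, inv_mul_cancel₀ h.ne']⟩
    generalize √ν = n0 at *
    generalize √(1 - ν) = n1 at *
    obtain ⟨t, ht⟩ : ∃ t, t = (1 - γ) * q + γ * ν := ⟨_, rfl⟩
    refine ⟨s * q * n1 * r, t * n1 * r, -((1 - t) * n0 * r), -(s * (1 - q) * n0 * r), g * n0,
      g * n1, ?_, ?_, ?_, ?_, ?_, ?_, le_of_eq ?_⟩
    · have e : (1 - γ) * q * q * (1 - ν) + (1 - t) * (1 - t) * ν =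
          (1 - γ * ν) * ((1 - γ) * (q - ν) ^ 2 + ν * (1 - ν)) := by rw [ht]; ring
      calc _ = (r * r) * ((s * s) * q * q * (n1 * n1) + (1 - t) * (1 - t) * (n0 * n0)) := by ring
        _ = _ := by rw [hs, h0, h1, e]; linear_combination (1 - γ * ν) * hr
    · have e : t * t * (1 - ν) + (1 - γ) * (1 - q) * (1 - q) * ν =
          (1 - γ + γ * ν) * ((1 - γ) * (q - ν) ^ 2 + ν * (1 - ν)) := by rw [ht]; ring
      calc _ = (r * r) * (t * t * (n1 * n1) + (s * s) * (1 - q) * (1 - q) * (n0 * n0)) := by ring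
        _ = _ := by rw [hs, h0, h1, e]; linear_combination (1 - γ + γ * ν) * hr
    · have e : q * t * (1 - ν) + (1 - t) * (1 - q) * ν =
          ((1 - γ) * (q - ν) ^ 2 + ν * (1 - ν)) := by rw [ht]; ring
      calc _ = s * (r * r) * (q * t * (n1 * n1) + (1 - t) * (1 - q) * (n0 * n0)) := by ring
        _ = _ := by rw [h0, h1, e]; linear_combination s * hr
    · calc _ = (g * g) * (n0 * n0) := by ring
        _ = _ := by rw [hg, h0]
    · calc _ = (g * g) * (n1 * n1) := by ring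
        _ = _ := by rw [hg, h1]
    · have e : t * (1 - t) - (1 - γ) * q * (1 - q) =
          γ * ((1 - γ) * (q - ν) ^ 2 + ν * (1 - ν)) := by rw [ht]; ring
      calc _ = n0 * n1 * (r * r) * (t * (1 - t) - (s * s) * q * (1 - q)) := by ring
        _ = (g * g) * n0 * n1 := by rw [hs, hg, e]; linear_combination γ * n0 * n1 * hr
        _ = _ := by ring
    · have e : q * t * (1 - ν) + (1 - t) * (1 - q) * ν =
          ((1 - γ) * (q - ν) ^ 2 + ν * (1 - ν)) := by rw [ht]; ring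
      symm
      calc _ = (g * g) * (r * r) * (q * t * (n1 * n1) + (1 - t) * (1 - q) * (n0 * n0)) ^ 2 := by
            ring
        _ = _ := by
            rw [hg, h0, h1, e]
            linear_combination γ * ((1 - γ) * (q - ν) ^ 2 + ν * (1 - ν)) * hr

lemma trace2 (A B : Matrix (Fin 2) (Fin 2) ℂ) : trace (A * Bᴴ) = A 0 0 * conj (B 0 0) +
    A 0 1 * conj (B 0 1) + A 1 0 * conj (B 1 0) + A 1 1 * conj (B 1 1) := by
  simp only [trace, Matrix.diag, Matrix.mul_apply, Fin.sum_univ_two, conjTranspose_apply,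
    RCLike.star_def]
  ring

lemma star0 {γ ν : ℝ} (hγ : γ ∈ Set.Icc (0 : ℝ) 1) (hν : ν ∈ Set.Icc (0 : ℝ) 1)
    (T0 T1 : Matrix m l ℂ) {q ζ : ℝ}
    (h0 : trace (T0 * T0ᴴ) = (1 - q : ℝ)) (h1 : trace (T1 * T1ᴴ) = q)
    (hz : trace (T0 * T1ᴴ) = ζ * Complex.I) :
    (gb γ ν (T0 * T0ᴴ) (T0 * T1ᴴ) (T1 * T0ᴴ) (T1 * T1ᴴ)).PosSemidef ∧
    ∃ c : Fin 2 × Fin 3 → Fin 2 → ℂ,
      (∀ i j, ∑ a, c a i * conj (c a j) = if i = j then 2 else 0) ∧
      1 / 2 * ∑ a, H (cmb (c a) T0 T1 * (cmb (c a) T0 T1)ᴴ) + e2 1 (del γ ν q) ≤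
        H (gb γ ν (T0 * T0ᴴ) (T0 * T1ᴴ) (T1 * T0ᴴ) (T1 * T1ᴴ)) := by
  obtain ⟨d10, d11, d20, d21, a, b, e1, e2', e3, e4, e5, e6, e7⟩ := exists_d hγ hν q
  have c1 := congrArg ((↑) : ℝ → ℂ) e1
  have c2 := congrArg ((↑) : ℝ → ℂ) e2'
  have c3 := congrArg ((↑) : ℝ → ℂ) e3
  have c4 := congrArg ((↑) : ℝ → ℂ) e4
  have c5 := congrArg ((↑) : ℝ → ℂ) e5
  have c6 := congrArg ((↑) : ℝ → ℂ) e6
  push_cast at c1 c2 c3 c4 c5 c6
  have R : ∀ κ : ℝ, κ * κ = 1 → _ := fun κ hκ =>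
    rank_two_bound !![(κ * d10 : ℝ), (κ * d20 : ℝ); (a : ℝ), 0]
      !![0, (b : ℝ); (κ * d11 : ℝ), (κ * d21 : ℝ)] T0 T1 (A0 := -(κ * a * d20))
      (A1 := -(κ * b * d11)) (g := κ * (d20 * b + a * d11)) h0 h1 hz
      (by
        have hk := congrArg ((↑) : ℝ → ℂ) hκ
        push_cast at hk
        rw [trace2]; simp
        linear_combination (d10 * d10 + d20 * d20) * hk + c1 + c4)
      (by
        have hk := congrArg ((↑) : ℝ → ℂ) hκ
        push_cast at hk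
        rw [trace2]; simp
        linear_combination (d11 * d11 + d21 * d21) * hk + c2 + c5)
      (by rw [trace2]; simp; ring)
      (by rw [trace2]; simp; ring)
      (fun x0 x1 => by
        have hk := congrArg ((↑) : ℝ → ℂ) hκ
        push_cast at hk
        simp [det_fin_two]
        linear_combination (x0 * x1 * (d10 * d21 - d20 * d11)) * hk + x0 * x1 * c6)
      (del_nonneg hγ hν q)
      (e7.trans (le_of_eq (by
        linear_combination (-(-(a * d20) * (1 - q) + b * d11 * q) ^ 2) * hκ)))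
  obtain ⟨u, hu, Hu⟩ := R 1 (by ring)
  obtain ⟨v, hv, Hv⟩ := R (-1) (by ring)
  have pu := posSemidef_self_mul_conjTranspose
    (pur !![(1 * d10 : ℝ), (1 * d20 : ℝ); (a : ℝ), 0] !![0, (b : ℝ); (1 * d11 : ℝ), (1 * d21 : ℝ)]
      T0 T1)
  have pv := posSemidef_self_mul_conjTranspose
    (pur !![(-1 * d10 : ℝ), (-1 * d20 : ℝ); (a : ℝ), 0]
      !![0, (b : ℝ); (-1 * d11 : ℝ), (-1 * d21 : ℝ)] T0 T1)
  have qu := psd_smul (c := 1 / 2) (by norm_num) pu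
  have qv := psd_smul (c := 1 / 2) (by norm_num) pv
  have A := H_add qu qv
  have B := qu.add qv
  rw [H_smul (by norm_num) pu, H_smul (by norm_num) pv] at A
  have e : ((1 / 2 : ℝ) : ℂ) • (pur !![(1 * d10 : ℝ), (1 * d20 : ℝ); (a : ℝ), 0]
      !![0, (b : ℝ); (1 * d11 : ℝ), (1 * d21 : ℝ)] T0 T1 *
      (pur !![(1 * d10 : ℝ), (1 * d20 : ℝ); (a : ℝ), 0]
      !![0, (b : ℝ); (1 * d11 : ℝ), (1 * d21 : ℝ)] T0 T1)ᴴ) +
      ((1 / 2 : ℝ) : ℂ) • (pur !![(-1 * d10 : ℝ), (-1 * d20 : ℝ); (a : ℝ), 0]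
      !![0, (b : ℝ); (-1 * d11 : ℝ), (-1 * d21 : ℝ)] T0 T1 *
      (pur !![(-1 * d10 : ℝ), (-1 * d20 : ℝ); (a : ℝ), 0]
      !![0, (b : ℝ); (-1 * d11 : ℝ), (-1 * d21 : ℝ)] T0 T1)ᴴ) =
      gb γ ν (T0 * T0ᴴ) (T0 * T1ᴴ) (T1 * T0ᴴ) (T1 * T1ᴴ) := by
    simp only [pur, gb, fromBlocks_conjTranspose, fromBlocks_multiply, cmb_mul, fromBlocks_smul,
      fromBlocks_add]
    generalize T0 * T0ᴴ = A
    generalize T0 * T1ᴴ = X
    generalize T1 * T0ᴴ = Y
    generalize T1 * T1ᴴ = B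
    congr 1 <;> ext x y <;> simp
    · linear_combination A x y * c1 + B x y * c5
    · linear_combination X x y * c3
    · linear_combination Y x y * c3
    · linear_combination A x y * c4 + B x y * c2
  rw [e] at A B
  refine ⟨B, fun x => ![u, v] x.1 x.2, fun i j => ?_, ?_⟩
  · rw [Fintype.sum_prod_type, Fin.sum_univ_two]
    simp only [cons_val_zero, cons_val_one, hu, hv]
    split_ifs
    · norm_num
    · push_cast; ring
  · rw [Fintype.sum_prod_type, Fin.sum_univ_two]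
    simp only [cons_val_zero, cons_val_one]
    linarith

theorem star_ineq {γ ν : ℝ} (hγ : γ ∈ Set.Icc (0 : ℝ) 1) (hν : ν ∈ Set.Icc (0 : ℝ) 1)
    (T0 T1 : Matrix m l ℂ) (h : tr (T0 * T0ᴴ) + tr (T1 * T1ᴴ) = 1) :
    (gb γ ν (T0 * T0ᴴ) (T0 * T1ᴴ) (T1 * T0ᴴ) (T1 * T1ᴴ)).PosSemidef ∧
    ∃ c : Fin 2 × Fin 3 → Fin 2 → ℂ,
      (∀ i j, ∑ a, c a i * conj (c a j) = if i = j then 2 else 0) ∧
      1 / 2 * ∑ a, H (cmb (c a) T0 T1 * (cmb (c a) T0 T1)ᴴ) + e2 1 (del γ ν (tr (T1 * T1ᴴ))) ≤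
        H (gb γ ν (T0 * T0ᴴ) (T0 * T1ᴴ) (T1 * T0ᴴ) (T1 * T1ᴴ)) := by
  obtain ⟨u, ζ, hu, hz⟩ : ∃ (u : ℂ) (ζ : ℝ), u * conj u = 1 ∧
      conj u * trace (T0 * T1ᴴ) = ζ * Complex.I := by
    generalize trace (T0 * T1ᴴ) = z
    rcases eq_or_ne z 0 with rfl | h
    · exact ⟨1, 0, by simp, by simp⟩
    · have h1 : (‖z‖ : ℂ) ≠ 0 := by simpa using h
      have h2 : z * conj z = (‖z‖ : ℂ) * ‖z‖ := by
        rw [Complex.mul_conj, Complex.normSq_eq_norm_sq]; push_cast; ring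
      refine ⟨-Complex.I * z / ‖z‖, ‖z‖, ?_, ?_⟩
      · simp only [map_div₀, map_mul, map_neg, Complex.conj_I, Complex.conj_ofReal]
        field_simp
        linear_combination (-Complex.I ^ 2) * h2 - (‖z‖ : ℂ) ^ 2 * Complex.I_sq
      · simp only [map_div₀, map_mul, map_neg, Complex.conj_I, Complex.conj_ofReal]
        field_simp
        linear_combination h2
  have e11 : (u • T1) * (u • T1)ᴴ = T1 * T1ᴴ := by
    rw [conjTranspose_smul, Matrix.smul_mul, Matrix.mul_smul, smul_smul, RCLike.star_def, hu,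
      one_smul]
  obtain ⟨P, c, hc, Hc⟩ := star0 hγ hν T0 (u • T1) (q := tr (T1 * T1ᴴ)) (ζ := ζ)
    (by rw [trace_eq (posSemidef_self_mul_conjTranspose T0), ← h]; simp)
    (by rw [e11, trace_eq (posSemidef_self_mul_conjTranspose T1)])
    (by rw [conjTranspose_smul, Matrix.mul_smul, trace_smul, ← hz]; rfl)
  have hU : (fromBlocks (1 : Matrix m m ℂ) 0 0 (conj u • (1 : Matrix m m ℂ)))ᴴ *
      fromBlocks (1 : Matrix m m ℂ) 0 0 (conj u • (1 : Matrix m m ℂ)) = 1 := by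
    rw [fromBlocks_conjTranspose, fromBlocks_multiply]
    simp [smul_smul, mul_comm (conj u), hu]
  have e : gb γ ν (T0 * T0ᴴ) (T0 * T1ᴴ) (T1 * T0ᴴ) (T1 * T1ᴴ) =
      fromBlocks (1 : Matrix m m ℂ) 0 0 (conj u • (1 : Matrix m m ℂ)) *
      gb γ ν (T0 * T0ᴴ) (T0 * (u • T1)ᴴ) ((u • T1) * T0ᴴ) ((u • T1) * (u • T1)ᴴ) *
      (fromBlocks (1 : Matrix m m ℂ) 0 0 (conj u • (1 : Matrix m m ℂ)))ᴴ := by
    rw [e11, conjTranspose_smul, Matrix.mul_smul, Matrix.smul_mul]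
    simp only [gb, fromBlocks_conjTranspose, fromBlocks_multiply]
    generalize T0 * T0ᴴ = A
    generalize T0 * T1ᴴ = X
    generalize T1 * T0ᴴ = Y
    generalize T1 * T1ᴴ = B
    congr 1 <;> ext x y <;> simp [-mul_eq_mul_left_iff]
    · linear_combination (-(√(1 - γ) : ℝ) * X x y) * hu
    · linear_combination (-(√(1 - γ) : ℝ) * Y x y) * hu
    · linear_combination (-(γ * ν * A x y + (1 - γ + γ * ν) * B x y)) * hu
  rw [e, H_conj hU P]
  refine ⟨P.mul_mul_conjTranspose_same _, fun a => ![c a 0, c a 1 * u], fun i j => ?_, ?_⟩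
  · have h00 := hc 0 0
    have h01 := hc 0 1
    have h10 := hc 1 0
    have h11 := hc 1 1
    fin_cases i <;> fin_cases j <;> simp at h00 h01 h10 h11 ⊢
    · exact h00
    · simp only [← mul_assoc, ← sum_mul, h01, zero_mul]
    · simp only [mul_right_comm _ u, ← sum_mul, h10, zero_mul]
    · rw [← h11]
      exact sum_congr rfl fun a _ => by linear_combination (c a 1 * conj (c a 1)) * hu
  · have : ∀ a, cmb ![c a 0, c a 1 * u] T0 T1 = cmb (c a) T0 (u • T1) := fun a => by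
      simp [cmb, smul_smul]
    simpa only [this] using Hc

end Vale.Agent.P358
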