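import Mathlib

namespace Vale.Agent.P358

open Filter Topology Real Finset

/-- `f` is the derivative of a potential with boundary data `m` (mass) and `s` (entropy). -/
def Rep (f : ℝ → ℝ) (m s : ℝ) : Prop :=
  ∃ Φ : ℝ → ℝ, ContinuousOn Φ (Set.Ici 0) ∧ (∀ t, 0 < t → HasDerivAt Φ (f t) t) ∧ Φ 0 = -s ∧
    Tendsto (fun t => Φ t - m * (Real.log t + 1)) atTop (𝓝 0)

lemma Rep.add {f g : ℝ → ℝ} {m s m' s' : ℝ} (h : Rep f m s) (h' : Rep g m' s') :
    Rep (fun t => f t + g t) (m + m') (s + s') := by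
  obtain ⟨Φ, c, d, z, l⟩ := h
  obtain ⟨Ψ, c', d', z', l'⟩ := h'
  refine ⟨fun t => Φ t + Ψ t, c.add c', fun t ht => (d t ht).add (d' t ht), ?_, ?_⟩
  · simp only [z, z']; ring
  · have := l.add l'
    rw [add_zero] at this
    exact this.congr fun t => by ring

lemma Rep.mul {f : ℝ → ℝ} {m s : ℝ} (h : Rep f m s) (c : ℝ) :
    Rep (fun t => c * f t) (c * m) (c * s) := by
  obtain ⟨Φ, k, d, z, l⟩ := h
  refine ⟨fun t => c * Φ t, continuousOn_const.mul k, fun t ht => (d t ht).const_mul c, ?_, ?_⟩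
  · simp only [z]; ring
  · have := l.const_mul c
    rw [mul_zero] at this
    exact this.congr fun t => by ring

lemma Rep.congr {f g : ℝ → ℝ} {m s m' s' : ℝ} (h : Rep f m s) (e : ∀ t, 0 < t → f t = g t)
    (em : m = m') (es : s = s') : Rep g m' s' := by
  obtain ⟨Φ, k, d, z, l⟩ := h
  subst em es
  exact ⟨Φ, k, fun t ht => e t ht ▸ d t ht, z, l⟩

lemma Rep.sub {f g : ℝ → ℝ} {m s m' s' : ℝ} (h : Rep f m s) (h' : Rep g m' s') :
    Rep (fun t => f t - g t) (m - m') (s - s') :=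
  (h.add (h'.mul (-1))).congr (fun t _ => by ring) (by ring) (by ring)

lemma Rep.zero : Rep (fun _ => 0) 0 0 :=
  ⟨fun _ => 0, continuousOn_const, fun t _ => hasDerivAt_const t 0, by simp, by simp⟩

lemma Rep.sum {ι : Type*} (S : Finset ι) {f : ι → ℝ → ℝ} {m s : ι → ℝ}
    (h : ∀ i ∈ S, Rep (f i) (m i) (s i)) :
    Rep (fun t => ∑ i ∈ S, f i t) (∑ i ∈ S, m i) (∑ i ∈ S, s i) := by
  classical
  induction S using Finset.induction_on with
  | empty => simpa using Rep.zero
  | insert a S ha ih =>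
    have h1 := (h a (mem_insert_self _ _)).add (ih fun i hi => h i (mem_insert_of_mem hi))
    exact h1.congr (fun t _ => by rw [sum_insert ha]) (by rw [sum_insert ha])
      (by rw [sum_insert ha])

lemma Rep.base {x : ℝ} (hx : 0 ≤ x) : Rep (fun t => Real.log (1 + t⁻¹ * x)) x (negMulLog x) := by
  refine ⟨fun t => (t + x) * Real.log (t + x) - t * Real.log t, ?_, fun t ht => ?_, ?_, ?_⟩
  · exact ((continuous_mul_log.comp (continuous_id.add continuous_const)).sub
      continuous_mul_log).continuousOn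
  · have h1 : HasDerivAt (fun t => (t + x) * Real.log (t + x)) (Real.log (t + x) + 1) t := by
      have := (hasDerivAt_mul_log (x := t + x) (by linarith)).comp t
        ((hasDerivAt_id t).add_const x)
      exact this.congr_deriv (mul_one _)
    have h2 := hasDerivAt_mul_log (x := t) ht.ne'
    refine (h1.sub h2).congr_deriv ?_
    have : 1 + t⁻¹ * x = (t + x) / t := by field_simp
    simp only [this]
    rw [Real.log_div (by linarith) ht.ne']; ring
  · simp [negMulLog]
  · have h1 := Real.tendsto_mul_log_one_add_div_atTop x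
    have h2 : Tendsto (fun t : ℝ => x * Real.log (1 + x / t)) atTop (𝓝 0) := by
      have h3 : Tendsto (fun t : ℝ => 1 + x / t) atTop (𝓝 (1 + 0)) :=
        tendsto_const_nhds.add (tendsto_id.const_div_atTop x)
      have h4 := (h3.log (by norm_num)).const_mul x
      simpa using h4
    have h5 := (h1.add h2).sub_const x
    rw [add_zero, sub_self] at h5
    refine h5.congr' ?_
    filter_upwards [eventually_gt_atTop 0] with t ht
    have : 1 + x / t = (t + x) / t := by field_simp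
    rw [this, Real.log_div (by linarith) ht.ne']; ring

lemma Rep.nonneg {f : ℝ → ℝ} {s : ℝ} (h : Rep f 0 s) (hf : ∀ t, 0 < t → 0 ≤ f t) : 0 ≤ s := by
  obtain ⟨Φ, k, d, z, l⟩ := h
  have hm : MonotoneOn Φ (Set.Ici 0) := by
    refine monotoneOn_of_deriv_nonneg (convex_Ici 0) k (fun t ht => ?_) (fun t ht => ?_)
    · rw [interior_Ici] at ht
      exact (d t ht).differentiableAt.differentiableWithinAt
    · rw [interior_Ici] at ht
      rw [(d t ht).deriv]; exact hf t ht
  simp only [zero_mul, sub_zero] at l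
  have : Φ 0 ≤ 0 := ge_of_tendsto l (by
    filter_upwards [eventually_ge_atTop 0] with t ht
    exact hm (le_refl (0 : ℝ)) ht ht)
  linarith

lemma Rep.le {f g : ℝ → ℝ} {m m' s s' : ℝ} (h : Rep f m s) (h' : Rep g m' s') (e : m = m')
    (hf : ∀ t, 0 < t → f t ≤ g t) : s ≤ s' := by
  have := ((h'.sub h).congr (fun _ _ => rfl) (by rw [e, sub_self]) rfl).nonneg
    fun t ht => sub_nonneg.2 (hf t ht)
  linarith

lemma Rep.eq {f g : ℝ → ℝ} {m m' s s' : ℝ} (h : Rep f m s) (h' : Rep g m' s') (e : m = m')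
    (hf : ∀ t, 0 < t → f t = g t) : s = s' :=
  le_antisymm (h.le h' e fun t ht => (hf t ht).le) (h'.le h e.symm fun t ht => (hf t ht).ge)

/-- Entropy of a two-point spectrum with sum `T` and product `d`. -/
noncomputable def e2 (T d : ℝ) : ℝ :=
  negMulLog ((T + √(T ^ 2 - 4 * d)) / 2) + negMulLog ((T - √(T ^ 2 - 4 * d)) / 2)

lemma rep_e2 {T d : ℝ} (hT : 0 ≤ T) (hd : 0 ≤ d) (h : 4 * d ≤ T ^ 2) :
    Rep (fun t => Real.log (1 + t⁻¹ * T + t⁻¹ ^ 2 * d)) T (e2 T d) := by
  have h0 := Real.sqrt_nonneg (T ^ 2 - 4 * d)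
  have h1 : √(T ^ 2 - 4 * d) ≤ T := by
    rw [Real.sqrt_le_left hT]; linarith
  have h2 := Real.sq_sqrt (show 0 ≤ T ^ 2 - 4 * d by linarith)
  have ha : 0 ≤ (T + √(T ^ 2 - 4 * d)) / 2 := by linarith
  have hb : 0 ≤ (T - √(T ^ 2 - 4 * d)) / 2 := by linarith
  refine ((Rep.base ha).add (Rep.base hb)).congr (fun t ht => ?_) (by ring) rfl
  have hi : 0 < t⁻¹ := inv_pos.2 ht
  rw [← Real.log_mul (by positivity) (by positivity)]
  congr 1
  linear_combination (-(t⁻¹ ^ 2) / 4) * h2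

lemma e2_mono {T d d' : ℝ} (hT : 0 ≤ T) (hd : 0 ≤ d) (hd' : d ≤ d') (h : 4 * d' ≤ T ^ 2) :
    e2 T d ≤ e2 T d' := by
  refine (rep_e2 hT hd (by linarith)).le (rep_e2 hT (hd.trans hd') h) rfl fun t ht => ?_
  have hi : 0 < t⁻¹ := inv_pos.2 ht
  exact Real.log_le_log (by positivity) (by gcongr)

lemma e2_smul {T d c : ℝ} (hc : 0 ≤ c) : e2 (c * T) (c ^ 2 * d) = c * e2 T d + negMulLog c * T := by
  have : √((c * T) ^ 2 - 4 * (c ^ 2 * d)) = c * √(T ^ 2 - 4 * d) := by
    rw [show (c * T) ^ 2 - 4 * (c ^ 2 * d) = c ^ 2 * (T ^ 2 - 4 * d) by ring,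
      Real.sqrt_mul (sq_nonneg c), Real.sqrt_sq hc]
  unfold e2
  rw [this, show (c * T + c * √(T ^ 2 - 4 * d)) / 2 = c * ((T + √(T ^ 2 - 4 * d)) / 2) by ring,
    show (c * T - c * √(T ^ 2 - 4 * d)) / 2 = c * ((T - √(T ^ 2 - 4 * d)) / 2) by ring,
    negMulLog_mul, negMulLog_mul]
  ring

lemma rep_psi {a w v : ℝ} (ha : 0 ≤ a) (hw : 0 ≤ w) (hv : 0 ≤ v) :
    Rep (fun t => Real.log (1 + t⁻¹ * a / ((1 + t⁻¹ * w) * (1 + t⁻¹ * v)))) a
      (e2 (a + w + v) (w * v) - negMulLog w - negMulLog v) := by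
  refine (((rep_e2 (T := a + w + v) (d := w * v) (by positivity) (by positivity)
    (by nlinarith [sq_nonneg (w - v), mul_nonneg ha hw, mul_nonneg ha hv, sq_nonneg a])).sub
    (Rep.base hw)).sub (Rep.base hv)).congr (fun t ht => ?_) (by ring) rfl
  have hi : 0 < t⁻¹ := inv_pos.2 ht
  generalize t⁻¹ = r at hi
  rw [← Real.log_div (by positivity) (by positivity), ← Real.log_div (by positivity) (by positivity)]
  congr 1
  field_simp
  ring

lemma tangent {k x y x0 y0 : ℝ} (hk : 0 ≤ k) (hx : 0 < x) (hy : 0 < y) (hx0 : 0 < x0)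
    (hy0 : 0 < y0) :
    Real.log (1 + k / (x0 * y0)) - k / (k + x0 * y0) * ((x / x0 - 1) + (y / y0 - 1)) ≤
      Real.log (1 + k / (x * y)) := by
  obtain ⟨m, hm⟩ : ∃ m, m = k / (k + x0 * y0) := ⟨_, rfl⟩
  have hp : 0 < k + x0 * y0 := by positivity
  have hm0 : 0 ≤ m := by rw [hm]; positivity
  have hm1 : m ≤ 1 := by rw [hm, div_le_one hp]; nlinarith [mul_pos hx0 hy0]
  have hc := (strictConcaveOn_log_Ioi.concaveOn).2 (show (1 : ℝ) ∈ Set.Ioi 0 by simp)
    (show x0 * y0 / (x * y) ∈ Set.Ioi 0 by simp only [Set.mem_Ioi]; positivity)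
    (show 0 ≤ 1 - m by linarith) hm0 (by ring)
  simp only [smul_eq_mul, Real.log_one, mul_zero, zero_add, mul_one] at hc
  have e : 1 + k / (x * y) = (1 + k / (x0 * y0)) * (1 - m + m * (x0 * y0 / (x * y))) := by
    rw [hm]; field_simp; ring
  have hq : 0 < 1 - m + m * (x0 * y0 / (x * y)) := by
    have : 0 < 1 + k / (x * y) := by positivity
    rw [e] at this
    exact pos_of_mul_pos_left this (by positivity) |> fun h => by
      by_contra hn
      have h1 : 0 < 1 + k / (x0 * y0) := by positivity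
      nlinarith [mul_nonneg h1.le (neg_nonneg.2 (not_lt.1 hn))]
  rw [e, Real.log_mul (by positivity) hq.ne', ← hm]
  have e2 : Real.log (x0 * y0 / (x * y)) = -(Real.log (x / x0) + Real.log (y / y0)) := by
    rw [← Real.log_mul (by positivity) (by positivity), ← Real.log_inv]
    congr 1; field_simp
  have h1 := Real.log_le_sub_one_of_pos (show 0 < x / x0 by positivity)
  have h2 := Real.log_le_sub_one_of_pos (show 0 < y / y0 by positivity)
  rw [e2] at hc
  nlinarith [mul_le_mul_of_nonneg_left (add_le_add h1 h2) hm0]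

/-- The scalar function whose convexity drives the argument. -/
noncomputable def psi (a w v : ℝ) : ℝ :=
  e2 (a + w + v) (w * v) - negMulLog a - negMulLog w - negMulLog v

lemma psi_smul {a w v c : ℝ} (hc : 0 ≤ c) : psi (c * a) (c * w) (c * v) = c * psi a w v := by
  unfold psi
  rw [show c * a + c * w + c * v = c * (a + w + v) by ring,
    show c * w * (c * v) = c ^ 2 * (w * v) by ring, e2_smul hc, negMulLog_mul, negMulLog_mul,
    negMulLog_mul]
  ring

lemma psi_zero {w v : ℝ} (hw : 0 ≤ w) (hv : 0 ≤ v) : psi 0 w v = 0 := by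
  have := (rep_psi le_rfl hw hv).eq Rep.zero rfl fun t _ => by simp
  unfold psi
  simp only [negMulLog_zero]; linarith

lemma psi_sum {ι : Type*} [Fintype ι] (a w v : ι → ℝ) (ha : ∀ i, 0 ≤ a i) (hw : ∀ i, 0 ≤ w i)
    (hv : ∀ i, 0 ≤ v i) : psi (∑ i, a i) (∑ i, w i) (∑ i, v i) ≤ ∑ i, psi (a i) (w i) (v i) := by
  obtain ⟨A, hA⟩ : ∃ A, A = ∑ i, a i := ⟨_, rfl⟩
  obtain ⟨W, hW⟩ : ∃ W, W = ∑ i, w i := ⟨_, rfl⟩
  obtain ⟨V, hV⟩ : ∃ V, V = ∑ i, v i := ⟨_, rfl⟩
  have hA0 : 0 ≤ A := hA ▸ sum_nonneg fun i _ => ha i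
  have hW0 : 0 ≤ W := hW ▸ sum_nonneg fun i _ => hw i
  have hV0 : 0 ≤ V := hV ▸ sum_nonneg fun i _ => hv i
  rw [← hA, ← hW, ← hV]
  rcases hA0.eq_or_lt with h | h
  · have h0 : ∀ i, a i = 0 := fun i =>
      (sum_eq_zero_iff_of_nonneg fun i _ => ha i).1 (hA ▸ h.symm) i (mem_univ i)
    rw [← h, psi_zero hW0 hV0]
    exact sum_nonneg fun i _ => by rw [h0 i, psi_zero (hw i) (hv i)]
  obtain ⟨c, hc⟩ : ∃ c : ι → ℝ, c = fun i => a i / A := ⟨_, rfl⟩
  have hc0 : ∀ i, 0 ≤ c i := fun i => by rw [hc]; exact div_nonneg (ha i) hA0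
  have hc1 : ∑ i, c i = 1 := by rw [hc, ← sum_div, ← hA, div_self h.ne']
  have hca : ∀ i, c i * A = a i := fun i => by rw [hc]; field_simp
  have hcw : ∀ (u : ι → ℝ), (∀ i, 0 ≤ u i) → ∀ i, c i * (u i / c i) ≤ u i := fun u hu i => by
    rcases eq_or_ne (c i) 0 with h | h
    · simp [h, hu i]
    · rw [mul_div_cancel₀ _ h]
  have h1 : ∀ i, psi (a i) (w i) (v i) = c i * psi A (w i / c i) (v i / c i) := fun i => by
    rcases eq_or_ne (c i) 0 with h | h
    · rw [← hca i, h, zero_mul, zero_mul, psi_zero (hw i) (hv i)]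
    · rw [← psi_smul (hc0 i), hca, mul_div_cancel₀ _ h, mul_div_cancel₀ _ h]
  have R := Rep.sum univ fun i _ =>
    (rep_psi hA0 (div_nonneg (hw i) (hc0 i)) (div_nonneg (hv i) (hc0 i))).mul (c i)
  have key := (rep_psi hA0 hW0 hV0).le R (by rw [← sum_mul, hc1, one_mul]) fun t ht => by
    have hi : 0 < t⁻¹ := inv_pos.2 ht
    generalize t⁻¹ = r at hi
    have hx : 0 < 1 + r * W := by positivity
    have hy : 0 < 1 + r * V := by positivity
    have hk : 0 ≤ r * A := by positivity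
    have h2 := sum_le_sum (s := univ) fun i _ => mul_le_mul_of_nonneg_left
      (tangent (k := r * A) (x := 1 + r * (w i / c i)) (y := 1 + r * (v i / c i)) hk
        (by have := div_nonneg (hw i) (hc0 i); positivity)
        (by have := div_nonneg (hv i) (hc0 i); positivity) hx hy) (hc0 i)
    refine le_trans ?_ h2
    have h3 : ∑ i, c i * (w i / c i) ≤ W := hW ▸ sum_le_sum fun i _ => hcw w hw i
    have h4 : ∑ i, c i * (v i / c i) ≤ V := hV ▸ sum_le_sum fun i _ => hcw v hv i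
    have hm : 0 ≤ r * A / (r * A + (1 + r * W) * (1 + r * V)) := by positivity
    generalize r * A / (r * A + (1 + r * W) * (1 + r * V)) = m at hm
    generalize Real.log (1 + r * A / ((1 + r * W) * (1 + r * V))) = L
    have e : ∑ i, c i * (L - m * ((1 + r * (w i / c i)) / (1 + r * W) - 1 +
        ((1 + r * (v i / c i)) / (1 + r * V) - 1))) =
        (∑ i, c i) * (L - m * (1 / (1 + r * W) - 1 + (1 / (1 + r * V) - 1))) -
          m * (r / (1 + r * W)) * ∑ i, c i * (w i / c i) -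
          m * (r / (1 + r * V)) * ∑ i, c i * (v i / c i) := by
      rw [sum_mul, mul_sum, mul_sum, ← sum_sub_distrib, ← sum_sub_distrib]
      exact sum_congr rfl fun i _ => by ring
    rw [e, hc1]
    have h5 := mul_le_mul_of_nonneg_left h3 (show 0 ≤ m * (r / (1 + r * W)) by positivity)
    have h6 := mul_le_mul_of_nonneg_left h4 (show 0 ≤ m * (r / (1 + r * V)) by positivity)
    have e1 : m * (r / (1 + r * W)) * W = -(m * (1 / (1 + r * W) - 1)) := by field_simp; ring
    have e2 : m * (r / (1 + r * V)) * V = -(m * (1 / (1 + r * V) - 1)) := by field_simp; ring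
    nlinarith
  rw [sum_congr rfl fun i _ => h1 i]
  unfold psi
  have e : ∑ i, c i * (e2 (A + w i / c i + v i / c i) (w i / c i * (v i / c i)) - negMulLog A -
      negMulLog (w i / c i) - negMulLog (v i / c i)) =
      ∑ i, c i * (e2 (A + w i / c i + v i / c i) (w i / c i * (v i / c i)) -
      negMulLog (w i / c i) - negMulLog (v i / c i)) - (∑ i, c i) * negMulLog A := by
    rw [sum_mul, ← sum_sub_distrib]
    exact sum_congr rfl fun i _ => by ring
  rw [e, hc1]
  linarith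

end Vale.Agent.P358
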