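import Vale.Agent.P358.Zero

namespace Vale.Agent.P358

open Real Finset Matrix
open scoped ComplexOrder ComplexConjugate

set_option linter.unusedSectionVars false

variable {m n k l : Type} [Fintype m] [Fintype n] [Fintype k] [Fintype l]
  [DecidableEq m] [DecidableEq n] [DecidableEq k] [DecidableEq l]

/-- linear combination of two matrices -/
def cmb (c : Fin 2 → ℂ) (T0 T1 : Matrix m l ℂ) : Matrix m l ℂ := c 0 • T0 + c 1 • T1

/-- scalar block matrix -/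
def blk (m : Type) [DecidableEq m] (U : Matrix (Fin 2) (Fin 2) ℂ) : Matrix (m ⊕ m) (m ⊕ m) ℂ :=
  fromBlocks (U 0 0 • 1) (U 0 1 • 1) (U 1 0 • 1) (U 1 1 • 1)

/-- purification of the output of a map with two Kraus operators -/
def pur (F0 F1 : Matrix (Fin 2) (Fin 2) ℂ) (T0 T1 : Matrix m l ℂ) : Matrix (m ⊕ m) (l ⊕ l) ℂ :=
  fromBlocks (cmb ![F0 0 0, F1 0 0] T0 T1) (cmb ![F0 0 1, F1 0 1] T0 T1)
    (cmb ![F0 1 0, F1 1 0] T0 T1) (cmb ![F0 1 1, F1 1 1] T0 T1)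

lemma blk_mul (U V : Matrix (Fin 2) (Fin 2) ℂ) : blk m U * blk m V = blk m (U * V) := by
  simp only [blk, fromBlocks_multiply, Matrix.mul_apply, Fin.sum_univ_two, Matrix.smul_mul,
    Matrix.one_mul, smul_smul, add_smul]

lemma blk_conj (U : Matrix (Fin 2) (Fin 2) ℂ) : (blk m U)ᴴ = blk m Uᴴ := by
  simp only [blk, fromBlocks_conjTranspose, conjTranspose_smul, conjTranspose_one,
    conjTranspose_apply]

lemma blk_one : blk m 1 = 1 := by simp [blk]

lemma pur_mul (U Y F0 F1 : Matrix (Fin 2) (Fin 2) ℂ) (T0 T1 : Matrix m l ℂ) :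
    pur (U * F0 * Y) (U * F1 * Y) T0 T1 = blk m U * pur F0 F1 T0 T1 * blk l Y := by
  simp only [blk, pur, cmb, fromBlocks_multiply, Matrix.mul_apply, Fin.sum_univ_two,
    Matrix.smul_mul, Matrix.mul_smul, Matrix.one_mul, Matrix.mul_one, cons_val_zero, cons_val_one]
  congr 1 <;> module

lemma unit_col (y : Fin 2 → ℂ) (hy : y ≠ 0) :
    ∃ (Y : Matrix (Fin 2) (Fin 2) ℂ) (r : ℂ), Y * Yᴴ = 1 ∧ ∀ e, Y e 1 = r * y e := by
  have h : 0 < Complex.normSq (y 0) + Complex.normSq (y 1) := by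
    by_contra hn
    have a := Complex.normSq_nonneg (y 0)
    have b := Complex.normSq_nonneg (y 1)
    apply hy
    ext i
    fin_cases i
    · exact Complex.normSq_eq_zero.1 (by simp only [Fin.zero_eta]; linarith)
    · exact Complex.normSq_eq_zero.1 (by simp only [Fin.mk_one]; linarith)
  obtain ⟨r, hr⟩ : ∃ r : ℝ, r * r * (Complex.normSq (y 0) + Complex.normSq (y 1)) = 1 :=
    ⟨(√(Complex.normSq (y 0) + Complex.normSq (y 1)))⁻¹, by
      rw [← mul_inv, Real.mul_self_sqrt h.le, inv_mul_cancel₀ h.ne']⟩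
  have hc : (r : ℂ) * r * (y 0 * conj (y 0) + y 1 * conj (y 1)) = 1 := by
    rw [Complex.mul_conj, Complex.mul_conj]; exact_mod_cast hr
  refine ⟨!![r * conj (y 1), r * y 0; -(r * conj (y 0)), r * y 1], r, ?_, fun e => ?_⟩
  · ext i j
    fin_cases i <;> fin_cases j <;>
      simp [Matrix.mul_apply, Fin.sum_univ_two, conjTranspose_apply] <;>
      first | linear_combination hc | ring
  · fin_cases e <;> simp

lemma triang (F0 F1 : Matrix (Fin 2) (Fin 2) ℂ) : ∃ U Y : Matrix (Fin 2) (Fin 2) ℂ,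
    Uᴴ * U = 1 ∧ Y * Yᴴ = 1 ∧ (U * F0 * Y) 1 1 = 0 ∧ (U * F1 * Y) 1 1 = 0 := by
  obtain ⟨y, hy, hd⟩ : ∃ y : Fin 2 → ℂ, y ≠ 0 ∧
      (F0 0 0 * y 0 + F0 0 1 * y 1) * (F1 1 0 * y 0 + F1 1 1 * y 1) -
      (F1 0 0 * y 0 + F1 0 1 * y 1) * (F0 1 0 * y 0 + F0 1 1 * y 1) = 0 := by
    by_cases h : F0 0 1 * F1 1 1 - F1 0 1 * F0 1 1 = 0
    · exact ⟨![0, 1], fun h => by simpa using congrFun h 1, by simpa using h⟩
    · obtain ⟨s, hs⟩ := IsAlgClosed.exists_eq_mul_self (discrim (F0 0 1 * F1 1 1 - F1 0 1 * F0 1 1)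
        (F0 0 0 * F1 1 1 + F0 0 1 * F1 1 0 - F1 0 0 * F0 1 1 - F1 0 1 * F0 1 0)
        (F0 0 0 * F1 1 0 - F1 0 0 * F0 1 0))
      obtain ⟨z, hz⟩ := exists_quadratic_eq_zero h ⟨s, hs⟩
      exact ⟨![1, z], fun h => by simpa using congrFun h 0, by
        simp only [cons_val_zero, cons_val_one]; linear_combination hz⟩
  obtain ⟨u, hu, h⟩ := (exists_vecMul_eq_zero_iff (M := !![F0 0 0 * y 0 + F0 0 1 * y 1,
    F1 0 0 * y 0 + F1 0 1 * y 1; F0 1 0 * y 0 + F0 1 1 * y 1, F1 1 0 * y 0 + F1 1 1 * y 1])).2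
    (by rw [det_fin_two_of]; exact hd)
  obtain ⟨Y, r, hY, hr⟩ := unit_col y hy
  obtain ⟨U, r', hU, hr'⟩ := unit_col u hu
  have h0 := congrFun h 0
  have h1 := congrFun h 1
  simp [vecMul, dotProduct, Fin.sum_univ_two] at h0 h1
  refine ⟨Uᵀ, Y, ?_, hY, ?_, ?_⟩
  · have := congrArg transpose hU
    rwa [transpose_mul, transpose_one] at this
  · simp only [Matrix.mul_apply, Fin.sum_univ_two, transpose_apply, hr, hr']
    linear_combination r * r' * h0
  · simp only [Matrix.mul_apply, Fin.sum_univ_two, transpose_apply, hr, hr']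
    linear_combination r * r' * h1

lemma normSq_det {U : Matrix (Fin 2) (Fin 2) ℂ} (h : U * Uᴴ = 1) : Complex.normSq (det U) = 1 := by
  have := congrArg det h
  rw [det_mul, det_conjTranspose, det_one] at this
  have h2 := Complex.mul_conj (det U)
  have h3 : ((Complex.normSq (det U) : ℝ) : ℂ) = 1 := by rw [← h2]; exact this
  exact_mod_cast h3

lemma rank_two (F0 F1 : Matrix (Fin 2) (Fin 2) ℂ) : ∃ (p w v : Fin 2 → ℂ) (φ : ℂ),
    (∀ i j, p i * conj (p j) + w i * conj (w j) + v i * conj (v j) =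
      trace (![F0, F1] i * (![F0, F1] j)ᴴ)) ∧ Complex.normSq φ = 1 ∧
    (∀ x0 x1 : ℂ, (w 0 * x0 + w 1 * x1) * (v 0 * x0 + v 1 * x1) = φ * det (x0 • F0 + x1 • F1)) ∧
    ∀ T0 T1 : Matrix m l ℂ, vN (pur F0 F1 T0 T1 * (pur F0 F1 T0 T1)ᴴ) =
      vN (zb (cmb p T0 T1) (cmb v T0 T1) (cmb w T0 T1 * (cmb w T0 T1)ᴴ)) := by
  obtain ⟨U, Y, hU, hY, h0, h1⟩ := triang F0 F1
  have ht : ∀ A B : Matrix (Fin 2) (Fin 2) ℂ,
      trace (U * A * Y * (U * B * Y)ᴴ) = trace (A * Bᴴ) := fun A B => by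
    rw [conjTranspose_mul, conjTranspose_mul, show U * A * Y * (Yᴴ * (Bᴴ * Uᴴ)) =
      U * (A * (Y * Yᴴ) * Bᴴ) * Uᴴ by simp only [Matrix.mul_assoc], hY, trace_mul_cycle, hU]
    simp
  have hd : ∀ x0 x1 : ℂ, det (x0 • (U * F0 * Y) + x1 • (U * F1 * Y)) =
      det U * det Y * det (x0 • F0 + x1 • F1) := fun x0 x1 => by
    rw [show x0 • (U * F0 * Y) + x1 • (U * F1 * Y) = U * (x0 • F0 + x1 • F1) * Y by
      simp only [Matrix.mul_add, Matrix.add_mul, Matrix.mul_smul, Matrix.smul_mul], det_mul, det_mul]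
    ring
  have hv : ∀ T0 T1 : Matrix m l ℂ, vN (pur F0 F1 T0 T1 * (pur F0 F1 T0 T1)ᴴ) =
      vN (pur (U * F0 * Y) (U * F1 * Y) T0 T1 * (pur (U * F0 * Y) (U * F1 * Y) T0 T1)ᴴ) :=
    fun T0 T1 => by
      have hB : (blk m U)ᴴ * blk m U = 1 := by rw [blk_conj, blk_mul, hU, blk_one]
      have hC : blk l Y * (blk l Y)ᴴ = 1 := by rw [blk_conj, blk_mul, hY, blk_one]
      rw [pur_mul, conjTranspose_mul, conjTranspose_mul,
        ← vN_conj hB (posSemidef_self_mul_conjTranspose _)]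
      congr 1
      generalize pur F0 F1 T0 T1 = R
      rw [show blk m U * R * blk l Y * ((blk l Y)ᴴ * (Rᴴ * (blk m U)ᴴ)) =
        blk m U * (R * (blk l Y * (blk l Y)ᴴ) * Rᴴ) * (blk m U)ᴴ by simp only [Matrix.mul_assoc],
        hC, Matrix.mul_one]
  have hφ : Complex.normSq (-(det U * det Y)) = 1 := by
    rw [Complex.normSq_neg, map_mul, normSq_det hY, normSq_det (mul_eq_one_comm.1 hU), mul_one]
  generalize hG0 : U * F0 * Y = G0 at *
  generalize hG1 : U * F1 * Y = G1 at *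
  refine ⟨![G0 0 0, G1 0 0], ![G0 0 1, G1 0 1], ![G0 1 0, G1 1 0], -(det U * det Y),
    fun i j => ?_, hφ, fun x0 x1 => ?_, fun T0 T1 => ?_⟩
  · rw [← ht]
    fin_cases i <;> fin_cases j <;>
      simp [hG0, hG1, trace, Matrix.mul_apply, Fin.sum_univ_two, h0, h1]
  · rw [neg_mul, ← hd, det_fin_two]
    simp only [Matrix.add_apply, Matrix.smul_apply, smul_eq_mul, h0, h1, cons_val_zero,
      cons_val_one]
    ring
  · rw [hv, pur, zb, h0, h1, fromBlocks_conjTranspose, fromBlocks_multiply]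
    have : cmb ![0, 0] T0 T1 = 0 := by simp [cmb]
    simp [this]

lemma cmb_mul (c d : Fin 2 → ℂ) (T0 T1 : Matrix m l ℂ) : cmb c T0 T1 * (cmb d T0 T1)ᴴ =
    (c 0 * conj (d 0)) • (T0 * T0ᴴ) + (c 0 * conj (d 1)) • (T0 * T1ᴴ) +
    (c 1 * conj (d 0)) • (T1 * T0ᴴ) + (c 1 * conj (d 1)) • (T1 * T1ᴴ) := by
  simp only [cmb, conjTranspose_add, conjTranspose_smul, Matrix.add_mul, Matrix.mul_add,
    Matrix.smul_mul, Matrix.mul_smul, RCLike.star_def]
  module

lemma trace_cs (P Q : Matrix m l ℂ) :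
    Complex.normSq (trace (P * Qᴴ)) ≤ tr (P * Pᴴ) * tr (Q * Qᴴ) := by
  have e : ∀ P : Matrix m l ℂ, tr (P * Pᴴ) = ∑ x : m × l, ‖P x.1 x.2‖ ^ 2 := fun P => by
    rw [tr_eq, Fintype.sum_prod_type]
    simp only [row_norm, Complex.normSq_eq_norm_sq]
  have e2 : trace (P * Qᴴ) = ∑ x : m × l, P x.1 x.2 * conj (Q x.1 x.2) := by
    rw [Fintype.sum_prod_type]; rfl
  rw [e, e, e2, Complex.normSq_eq_norm_sq]
  refine le_trans ?_ (sum_mul_sq_le_sq_mul_sq _ _ _)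
  gcongr
  refine (norm_sum_le _ _).trans (le_of_eq (sum_congr rfl fun x _ => ?_))
  rw [norm_mul, RCLike.norm_conj]

lemma rank_two_bound (F0 F1 : Matrix (Fin 2) (Fin 2) ℂ) (T0 T1 : Matrix m l ℂ) {q ζ δ A0 A1 g : ℝ}
    (h0 : trace (T0 * T0ᴴ) = (1 - q : ℝ)) (h1 : trace (T1 * T1ᴴ) = q)
    (hz : trace (T0 * T1ᴴ) = ζ * Complex.I)
    (f00 : trace (F0 * F0ᴴ) = 1) (f11 : trace (F1 * F1ᴴ) = 1) (f01 : trace (F0 * F1ᴴ) = g)
    (f10 : trace (F1 * F0ᴴ) = g)
    (hd : ∀ x0 x1 : ℂ, det (x0 • F0 + x1 • F1) = A0 * x0 ^ 2 + A1 * x1 ^ 2)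
    (hδ0 : 0 ≤ δ) (hδ : δ ≤ (A0 * (1 - q) - A1 * q) ^ 2) :
    ∃ c : Fin 3 → Fin 2 → ℂ,
      (∀ i j, ∑ a, c a i * conj (c a j) = if i = j then 1 else (g : ℂ)) ∧
      ∑ a, H (cmb (c a) T0 T1 * (cmb (c a) T0 T1)ᴴ) + e2 1 δ ≤
        H (pur F0 F1 T0 T1 * (pur F0 F1 T0 T1)ᴴ) := by
  obtain ⟨p, w, v, φ, c1, c2, c3, c4⟩ := rank_two (m := m) (l := l) F0 F1
  have hz' : trace (T1 * T0ᴴ) = -(ζ * Complex.I) := by
    rw [← conjTranspose_conjTranspose T1, ← conjTranspose_mul, trace_conjTranspose, hz]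
    simp
  have tc : ∀ c d : Fin 2 → ℂ, trace (cmb c T0 T1 * (cmb d T0 T1)ᴴ) =
      c 0 * conj (d 0) * (1 - q) + (c 0 * conj (d 1) - c 1 * conj (d 0)) * (ζ * Complex.I) +
        c 1 * conj (d 1) * q := fun c d => by
    rw [cmb_mul]
    simp only [trace_add, trace_smul, h0, h1, hz, hz', smul_eq_mul]
    push_cast; ring
  have a00 := c1 0 0
  have a01 := c1 0 1
  have a10 := c1 1 0
  have a11 := c1 1 1
  simp only [cons_val_zero, cons_val_one, f00, f11, f01, f10] at a00 a01 a10 a11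
  have hs : tr (cmb p T0 T1 * (cmb p T0 T1)ᴴ) + tr (cmb w T0 T1 * (cmb w T0 T1)ᴴ) +
      tr (cmb v T0 T1 * (cmb v T0 T1)ᴴ) = 1 := by
    unfold tr
    rw [← Complex.add_re, ← Complex.add_re, tc, tc, tc, ← Complex.one_re]
    congr 1
    linear_combination (1 - q) * a00 + (ζ * Complex.I) * (a01 - a10) + q * a11
  have hp : δ ≤ tr (cmb w T0 T1 * (cmb w T0 T1)ᴴ) * tr (cmb v T0 T1 * (cmb v T0 T1)ᴴ) := by
    have C := trace_cs (cmb w T0 T1) (cmb ![conj (v 0), -conj (v 1)] T0 T1)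
    have e1 : tr (cmb ![conj (v 0), -conj (v 1)] T0 T1 * (cmb ![conj (v 0), -conj (v 1)] T0 T1)ᴴ) =
        tr (cmb v T0 T1 * (cmb v T0 T1)ᴴ) := by
      unfold tr
      rw [tc, tc]
      congr 1
      simp only [cons_val_zero, cons_val_one, map_neg, Complex.conj_conj]
      ring
    have b0 := c3 1 0
    have b1 := c3 0 1
    have b2 := c3 1 1
    rw [hd] at b0 b1 b2
    have e2 : trace (cmb w T0 T1 * (cmb ![conj (v 0), -conj (v 1)] T0 T1)ᴴ) =
        φ * ((A0 * (1 - q) - A1 * q : ℝ) : ℂ) := by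
      rw [tc]
      simp only [cons_val_zero, cons_val_one, map_neg, Complex.conj_conj]
      push_cast
      linear_combination (1 - q) * b0 - q * b1 - (ζ * Complex.I) * (b2 - b0 - b1)
    rw [e1, e2, map_mul, c2, one_mul, Complex.normSq_ofReal] at C
    nlinarith
  have Z := zero_block (cmb p T0 T1) (cmb v T0 T1) (posSemidef_self_mul_conjTranspose (cmb w T0 T1))
  have p1 := tr_nonneg (posSemidef_self_mul_conjTranspose (cmb p T0 T1))
  have p2 := tr_nonneg (posSemidef_self_mul_conjTranspose (cmb w T0 T1))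
  have p3 := tr_nonneg (posSemidef_self_mul_conjTranspose (cmb v T0 T1))
  rw [hs, ← c4] at Z
  have M := e2_mono (T := 1) zero_le_one hδ0 hp (by
    generalize tr (cmb p T0 T1 * (cmb p T0 T1)ᴴ) = x at *
    generalize tr (cmb w T0 T1 * (cmb w T0 T1)ᴴ) = y at *
    generalize tr (cmb v T0 T1 * (cmb v T0 T1)ᴴ) = z at *
    nlinarith [sq_nonneg (y - z)])
  refine ⟨![p, w, v], fun i j => ?_, ?_⟩
  · rw [Fin.sum_univ_three]
    fin_cases i <;> fin_cases j <;> simp [a00, a01, a10, a11]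
  · rw [Fin.sum_univ_three, H_one (M := pur _ _ _ _ * _)]
    · simp only [cons_val_zero, cons_val_one, cons_val_two, tail_cons, head_cons]
      linarith
    · rw [pur, fromBlocks_conjTranspose, fromBlocks_multiply, tr_blocks]
      unfold tr
      rw [← Complex.add_re, trace_add, trace_add, tc, tc, tc, tc, ← Complex.one_re]
      congr 1
      simp only [trace, Matrix.diag, Matrix.mul_apply, Fin.sum_univ_two, conjTranspose_apply,
        RCLike.star_def] at f00 f11 f01 f10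
      simp only [cons_val_zero, cons_val_one]
      linear_combination (1 - q) * f00 + (ζ * Complex.I) * (f01 - f10) + q * f11

end Vale.Agent.P358
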