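import Vale.Agent.P358.Conv
import Vale.Agent.P358.Defs

namespace Vale.Agent.P358

open Real Finset Matrix
open scoped ComplexOrder ComplexConjugate

set_option linter.unusedSectionVars false

variable {n : ℕ} {l : Type} [Fintype l] [DecidableEq l]

/-- product matrix -/
def pk (A : Fin n → Matrix (Fin 2) (Fin 2) ℂ) : Matrix (Fin n → Fin 2) (Fin n → Fin 2) ℂ :=
  Matrix.of fun x y => ∏ i, A i (x i) (y i)

lemma sum_prod {κ : Type} [Fintype κ] {R : Type} [CommSemiring R] (f : Fin n → κ → R) :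
    ∑ x : Fin n → κ, ∏ i, f i (x i) = ∏ i, ∑ b, f i b := by
  classical
  rw [prod_univ_sum, Fintype.piFinset_univ]

lemma pk_mul (A B : Fin n → Matrix (Fin 2) (Fin 2) ℂ) : pk A * pk B = pk fun i => A i * B i := by
  ext x y
  simp only [pk, Matrix.mul_apply, of_apply, ← prod_mul_distrib]
  exact sum_prod fun i b => A i (x i) b * B i b (y i)

lemma pk_conj (A : Fin n → Matrix (Fin 2) (Fin 2) ℂ) : (pk A)ᴴ = pk fun i => (A i)ᴴ := by
  ext x y
  simp [pk, conjTranspose_apply]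

lemma pk_dg (d : Fin n → Fin 2 → ℝ) : pk (fun i => dg (d i)) = dg fun x => ∏ i, d i (x i) := by
  ext x y
  by_cases h : x = y
  · subst h; simp [pk, dg]
  · obtain ⟨i, hi⟩ := Function.ne_iff.1 h
    simp only [pk, dg, of_apply, diagonal_apply_ne _ h]
    exact prod_eq_zero (mem_univ i) (diagonal_apply_ne _ hi)

lemma pk_one : pk (fun _ : Fin n => 1) = 1 := by
  rw [← dg_one, pk_dg, ← dg_one]; simp

lemma trace_pk (A : Fin n → Matrix (Fin 2) (Fin 2) ℂ) : trace (pk A) = ∏ i, trace (A i) :=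
  sum_prod fun i b => A i b b

lemma pk_state {A : Fin n → Matrix (Fin 2) (Fin 2) ℂ} (h : ∀ i, IsState (A i)) :
    IsState (pk A) := by
  refine ⟨?_, by rw [trace_pk]; simp [fun i => (h i).2]⟩
  choose T hT using fun i => exists_sqrt (h i).1
  rw [show A = fun i => T i * (T i)ᴴ from funext hT, ← pk_mul, ← pk_conj]
  exact posSemidef_self_mul_conjTranspose _

lemma sum_cons {R : Type} [AddCommMonoid R] (f : (Fin (n + 1) → Fin 2) → R) :
    ∑ x, f x = ∑ x : Fin n → Fin 2, f (Fin.cons 0 x) + ∑ x : Fin n → Fin 2, f (Fin.cons 1 x) := by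
  rw [← (Fin.consEquiv fun _ => Fin 2).sum_comp, Fintype.sum_prod_type, Fin.sum_univ_two]
  rfl

lemma ent_prod (d : Fin n → Fin 2 → ℝ) (h : ∀ i, ∑ b, d i b = 1) :
    ∑ x : Fin n → Fin 2, negMulLog (∏ i, d i (x i)) = ∑ i, ∑ b, negMulLog (d i b) := by
  induction n with
  | zero => simp
  | succ n ih =>
    have h1 := ih (fun i => d i.succ) fun i => h _
    have h2 : ∑ x : Fin n → Fin 2, ∏ i, d i.succ (x i) = 1 := by
      rw [sum_prod fun (i : Fin n) b => d i.succ b]; simp [h]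
    have h3 := h 0
    rw [Fin.sum_univ_two] at h3
    rw [sum_cons, Fin.sum_univ_succ _, Fin.sum_univ_two]
    simp only [Fin.prod_univ_succ, Fin.cons_zero, Fin.cons_succ, negMulLog_mul, sum_add_distrib,
      ← sum_mul, ← mul_sum, h1, h2]
    linear_combination (∑ i : Fin n, ∑ b, negMulLog (d i.succ b)) * h3

lemma tr_state {m : Type} [Fintype m] {A : Matrix m m ℂ} (h : IsState A) : tr A = 1 := by
  unfold tr; rw [h.2]; rfl

lemma vN_pk {A : Fin n → Matrix (Fin 2) (Fin 2) ℂ} (h : ∀ i, IsState (A i)) :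
    vN (pk A) = ∑ i, vN (A i) := by
  choose U u1 u2 u3 using fun i => spec (h i).1.1
  have h0 := fun i => (h i).1.eigenvalues_nonneg
  generalize hd : (fun i => (h i).1.1.eigenvalues) = d
  have hd' : ∀ i, (h i).1.1.eigenvalues = d i := fun i => congrFun hd i
  simp only [hd'] at u3 h0
  have e : pk A = pk U * dg (fun x => ∏ i, d i (x i)) * (pk U)ᴴ := by
    rw [← pk_dg, pk_conj, pk_mul, pk_mul]
    exact congrArg pk (funext u3)
  have hU : (pk U)ᴴ * pk U = 1 := by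
    rw [pk_conj, pk_mul, ← pk_one]; exact congrArg pk (funext u1)
  have h1 : ∀ x : Fin n → Fin 2, 0 ≤ ∏ i, d i (x i) := fun x => prod_nonneg fun i _ => h0 i _
  rw [e, vN_conj hU (dg_psd h1), vN_dg h1, ent_prod]
  · exact sum_congr rfl fun i _ => by rw [u3 i, vN_conj (u1 i) (dg_psd (h0 i)), vN_dg (h0 i)]
  · intro i
    rw [← tr_dg, ← tr_conj (u1 i), ← u3 i, tr_state (h i)]

variable {γ ν : ℝ}

lemma gad_lin (γ ν : ℝ) (ρ : Matrix (Fin 2) (Fin 2) ℂ) (x y : Fin 2) :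
    ∑ a, ∑ b, gad γ ν (single a b 1) x y * ρ a b = gad γ ν ρ x y := by
  fin_cases x <;> fin_cases y <;> simp [gad, Fin.sum_univ_two]

lemma tp_pk (γ ν : ℝ) (A : Fin n → Matrix (Fin 2) (Fin 2) ℂ) :
    tensorPow (gad γ ν) n (pk A) = pk fun i => gad γ ν (A i) := by
  ext x y
  simp only [tensorPow, pk, of_apply, ← prod_mul_distrib, ← gad_lin γ ν (A _)]
  rw [← sum_prod]
  exact sum_congr rfl fun u _ =>
    sum_prod fun i b => gad γ ν (single (u i) b 1) (x i) (y i) * A i (u i) b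

lemma tp_sum (N : Matrix (Fin 2) (Fin 2) ℂ → Matrix (Fin 2) (Fin 2) ℂ) {J : Type} [Fintype J]
    (X : J → Matrix (Fin n → Fin 2) (Fin n → Fin 2) ℂ) :
    tensorPow N n (∑ a, X a) = ∑ a, tensorPow N n (X a) := by
  ext x y
  simp only [tensorPow, of_apply, Matrix.sum_apply, mul_sum]
  exact (sum_congr rfl fun u _ => sum_comm).trans sum_comm

lemma tp_smul (N : Matrix (Fin 2) (Fin 2) ℂ → Matrix (Fin 2) (Fin 2) ℂ) (c : ℂ)
    (X : Matrix (Fin n → Fin 2) (Fin n → Fin 2) ℂ) :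
    tensorPow N n (c • X) = c • tensorPow N n X := by
  ext x y
  simp only [tensorPow, of_apply, Matrix.smul_apply, smul_eq_mul, mul_sum]
  exact sum_congr rfl fun u _ => sum_congr rfl fun v _ => by ring

lemma tp_trace (γ ν : ℝ) (X : Matrix (Fin n → Fin 2) (Fin n → Fin 2) ℂ) :
    trace (tensorPow (gad γ ν) n X) = trace X := by
  have h : ∀ a b : Fin 2, ∑ x, gad γ ν (single a b 1) x x = (1 : Matrix _ _ ℂ) a b := fun a b => by
    fin_cases a <;> fin_cases b <;> simp [gad, Fin.sum_univ_two]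
    ring
  simp only [trace, Matrix.diag, tensorPow, of_apply]
  rw [sum_comm]
  refine sum_congr rfl fun u _ => ?_
  rw [sum_comm]
  have : ∀ v : Fin n → Fin 2, ∑ x : Fin n → Fin 2,
      (∏ i, gad γ ν (single (u i) (v i) 1) (x i) (x i)) * X u v =
      (1 : Matrix _ _ ℂ) u v * X u v := fun v => by
    rw [← sum_mul, sum_prod fun i b => gad γ ν (single (u i) (v i) 1) b b, ← pk_one]
    simp only [h, pk, of_apply]
  simp [this, one_apply]

lemma tp_tr (γ ν : ℝ) (X : Matrix (Fin n → Fin 2) (Fin n → Fin 2) ℂ) :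
    tr (tensorPow (gad γ ν) n X) = tr X := by unfold tr; rw [tp_trace]

lemma kraus (hγ : γ ∈ Set.Icc (0 : ℝ) 1) (hν : ν ∈ Set.Icc (0 : ℝ) 1) :
    ∃ K : Fin 4 → Matrix (Fin 2) (Fin 2) ℂ, ∀ a b x y,
      gad γ ν (single a b 1) x y = ∑ k, K k x a * conj (K k y b) := by
  obtain ⟨d10, d11, d20, d21, a, b, e1, e2', e3, e4, e5, -, -⟩ := exists_d hγ hν 0
  have c1 := congrArg ((↑) : ℝ → ℂ) e1
  have c2 := congrArg ((↑) : ℝ → ℂ) e2'
  have c3 := congrArg ((↑) : ℝ → ℂ) e3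
  have c4 := congrArg ((↑) : ℝ → ℂ) e4
  have c5 := congrArg ((↑) : ℝ → ℂ) e5
  push_cast at c1 c2 c3 c4 c5
  refine ⟨![!![d10, 0; 0, d11], !![d20, 0; 0, d21], !![0, 0; a, 0], !![0, b; 0, 0]],
    fun u v x y => ?_⟩
  fin_cases u <;> fin_cases v <;> fin_cases x <;> fin_cases y <;>
    simp [gad, Fin.sum_univ_four] <;>
    first
    | linear_combination -c1
    | linear_combination -c2
    | linear_combination -c3
    | linear_combination -c4
    | linear_combination -c5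

/-- purification through the Kraus operators -/
def lift (K : Fin 4 → Matrix (Fin 2) (Fin 2) ℂ) (S : Matrix (Fin n → Fin 2) l ℂ) :
    Matrix (Fin n → Fin 2) ((Fin n → Fin 4) × l) ℂ :=
  Matrix.of fun x p => (pk (fun i => K (p.1 i)) * S) x p.2

lemma lift_cmb (K : Fin 4 → Matrix (Fin 2) (Fin 2) ℂ) (c : Fin 2 → ℂ)
    (S S' : Matrix (Fin n → Fin 2) l ℂ) : lift K (cmb c S S') = cmb c (lift K S) (lift K S') := by
  ext x p
  simp [lift, cmb, Matrix.mul_add]

lemma lift_mul {N : Matrix (Fin 2) (Fin 2) ℂ → Matrix (Fin 2) (Fin 2) ℂ}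
    {K : Fin 4 → Matrix (Fin 2) (Fin 2) ℂ}
    (hK : ∀ a b x y, N (single a b 1) x y = ∑ k, K k x a * conj (K k y b))
    (S S' : Matrix (Fin n → Fin 2) l ℂ) : tensorPow N n (S * S'ᴴ) = lift K S * (lift K S')ᴴ := by
  ext x y
  have e : (lift K S * (lift K S')ᴴ) x y = ∑ κ : Fin n → Fin 4,
      (pk (fun i => K (κ i)) * (S * S'ᴴ) * (pk fun i => K (κ i))ᴴ) x y := by
    rw [Matrix.mul_apply, Fintype.sum_prod_type]
    refine sum_congr rfl fun κ _ => ?_
    rw [show pk (fun i => K (κ i)) * (S * S'ᴴ) * (pk fun i => K (κ i))ᴴ =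
      (pk (fun i => K (κ i)) * S) * (pk (fun i => K (κ i)) * S')ᴴ by
        rw [conjTranspose_mul]; simp only [Matrix.mul_assoc], Matrix.mul_apply]
    rfl
  rw [e]
  generalize S * S'ᴴ = ρ
  simp only [tensorPow, of_apply, hK, ← sum_prod, sum_mul, Matrix.mul_apply, pk,
    conjTranspose_apply, prod_mul_distrib]
  symm
  rw [sum_comm]
  refine (sum_congr rfl fun v _ => sum_comm).trans (sum_comm.trans ?_)
  refine sum_congr rfl fun u _ => sum_congr rfl fun v _ => sum_congr rfl fun κ _ => ?_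
  rw [star_prod]
  simp only [RCLike.star_def]
  ring

lemma tp_psd (hγ : γ ∈ Set.Icc (0 : ℝ) 1) (hν : ν ∈ Set.Icc (0 : ℝ) 1)
    {X : Matrix (Fin n → Fin 2) (Fin n → Fin 2) ℂ} (h : X.PosSemidef) :
    (tensorPow (gad γ ν) n X).PosSemidef := by
  obtain ⟨K, hK⟩ := kraus hγ hν
  obtain ⟨S, rfl⟩ := exists_sqrt h
  rw [lift_mul hK]
  exact posSemidef_self_mul_conjTranspose _

/-- splitting off the first qubit -/
def spl (n : ℕ) : ((Fin n → Fin 2) ⊕ (Fin n → Fin 2)) ≃ (Fin (n + 1) → Fin 2) where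
  toFun := Sum.elim (fun x => Fin.cons 0 x) (fun x => Fin.cons 1 x)
  invFun x := if x 0 = 0 then Sum.inl (Fin.tail x) else Sum.inr (Fin.tail x)
  left_inv := by rintro (x | x) <;> simp
  right_inv x := by
    by_cases h : x 0 = 0
    · simp only [h, if_true, Sum.elim_inl]; rw [← h]; exact Fin.cons_self_tail x
    · simp only [h, if_false, Sum.elim_inr]
      rw [← Fin.eq_one_of_ne_zero _ h]; exact Fin.cons_self_tail x

/-- block of a matrix for given values of the first qubit -/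
def bl (ρ : Matrix (Fin (n + 1) → Fin 2) (Fin (n + 1) → Fin 2) ℂ) (i j : Fin 2) :
    Matrix (Fin n → Fin 2) (Fin n → Fin 2) ℂ :=
  ρ.submatrix (fun x => Fin.cons i x) (fun x => Fin.cons j x)

lemma tp_succ (γ ν : ℝ) (ρ : Matrix (Fin (n + 1) → Fin 2) (Fin (n + 1) → Fin 2) ℂ) :
    (tensorPow (gad γ ν) (n + 1) ρ).submatrix (spl n) (spl n) =
      gb γ ν (tensorPow (gad γ ν) n (bl ρ 0 0)) (tensorPow (gad γ ν) n (bl ρ 0 1))
        (tensorPow (gad γ ν) n (bl ρ 1 0)) (tensorPow (gad γ ν) n (bl ρ 1 1)) := by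
  have h : ∀ (b b' : Fin 2) (x y : Fin n → Fin 2),
      tensorPow (gad γ ν) (n + 1) ρ (Fin.cons b x) (Fin.cons b' y) =
      gad γ ν (single 0 0 1) b b' * tensorPow (gad γ ν) n (bl ρ 0 0) x y +
      gad γ ν (single 0 1 1) b b' * tensorPow (gad γ ν) n (bl ρ 0 1) x y +
      (gad γ ν (single 1 0 1) b b' * tensorPow (gad γ ν) n (bl ρ 1 0) x y +
      gad γ ν (single 1 1 1) b b' * tensorPow (gad γ ν) n (bl ρ 1 1) x y) := fun b b' x y => by
    simp only [tensorPow, of_apply, sum_cons (n := n), Fin.prod_univ_succ, Fin.cons_zero,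
      Fin.cons_succ, bl, submatrix_apply, mul_sum, sum_add_distrib, mul_assoc]
  ext (x | x) (y | y) <;> simp [spl, h, gb, gad]

end Vale.Agent.P358
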