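import Vale.Agent.P358.Det

namespace Vale.Agent.P358

open Real Finset Matrix
open scoped ComplexOrder

set_option linter.unusedSectionVars false

variable {m n k l : Type} [Fintype m] [Fintype n] [Fintype k] [Fintype l]
  [DecidableEq m] [DecidableEq n] [DecidableEq k] [DecidableEq l]

/-- the block matrix with Gram part and an extra corner -/
def zb (P : Matrix m n ℂ) (Q : Matrix k n ℂ) (W : Matrix m m ℂ) : Matrix (m ⊕ k) (m ⊕ k) ℂ :=
  fromBlocks (P * Pᴴ + W) (P * Qᴴ) (Q * Pᴴ) (Q * Qᴴ)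

lemma zb_eq (P : Matrix m n ℂ) (Q : Matrix k n ℂ) (W : Matrix m m ℂ) :
    zb P Q W = fromBlocks W 0 0 0 + fromRows P Q * (fromRows P Q)ᴴ := by
  rw [conjTranspose_fromRows_eq_fromCols_conjTranspose, fromRows_mul_fromCols, fromBlocks_add, zb]
  simp [add_comm]

lemma zb_psd (P : Matrix m n ℂ) (Q : Matrix k n ℂ) {W : Matrix m m ℂ} (hW : W.PosSemidef) :
    (zb P Q W).PosSemidef := by
  rw [zb_eq]
  exact (psd_blocks hW PosSemidef.zero).add (posSemidef_self_mul_conjTranspose _)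

lemma det_zb (P : Matrix m n ℂ) (Q : Matrix k n ℂ) {W : Matrix m m ℂ} (c : ℂ)
    (hX : IsUnit (1 + c • W).det) :
    det (1 + c • zb P Q W) =
      det (1 + c • W) * det (1 + c • (Qᴴ * Q) + c • (Pᴴ * (1 + c • W)⁻¹ * P)) := by
  have e : 1 + c • zb P Q W =
      fromBlocks (1 + c • W) 0 0 1 + (c • fromRows P Q) * (fromRows P Q)ᴴ := by
    rw [zb_eq, smul_add, Matrix.smul_mul, ← add_assoc, ← fromBlocks_one, fromBlocks_smul,
      fromBlocks_add]
    simp
  have hd : det (fromBlocks (1 + c • W) 0 0 (1 : Matrix k k ℂ)) = det (1 + c • W) := by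
    rw [det_fromBlocks_zero₂₁, det_one, mul_one]
  have hi : (fromBlocks (1 + c • W) 0 0 (1 : Matrix k k ℂ))⁻¹ =
      fromBlocks (1 + c • W)⁻¹ 0 0 1 := by
    refine inv_eq_right_inv ?_
    rw [fromBlocks_multiply, mul_nonsing_inv _ hX]
    simp
  rw [e, det_add_mul _ _ (hd ▸ hX), hd, hi, conjTranspose_fromRows_eq_fromCols_conjTranspose,
    fromCols_mul_fromBlocks, Matrix.mul_smul, fromCols_mul_fromRows]
  congr 2
  simp only [Matrix.mul_zero, add_zero, zero_add, Matrix.mul_one, smul_add]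
  abel

lemma diag_re_nonneg {W : Matrix n n ℂ} (hW : W.PosSemidef) (i : n) : 0 ≤ (W i i).re :=
  (Complex.nonneg_iff.1 hW.diag_nonneg).1

lemma tr_eq (W : Matrix n n ℂ) : tr W = ∑ i, (W i i).re := by
  unfold tr trace; rw [Complex.re_sum]; rfl

lemma zb_diag (d : n → ℝ) (Q : Matrix k n ℂ) {W : Matrix n n ℂ} (hW : W.PosSemidef) :
    psi (tr (dg d * (dg d)ᴴ)) (tr W) (tr (Q * Qᴴ)) + vN (dg d * (dg d)ᴴ) + vN W + vN (Q * Qᴴ) ≤
      vN (zb (dg d) Q W) := by
  have hV := posSemidef_conjTranspose_mul_self Q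
  have ha : ∀ i, 0 ≤ d i * d i := fun i => mul_self_nonneg _
  have R1 := ((rep_vN (zb_psd (dg d) Q hW)).sub (rep_vN hW)).sub (rep_vN hV)
  have R2 := Rep.sum univ fun i _ => rep_psi (ha i) (diag_re_nonneg hW i) (diag_re_nonneg hV i)
  have key := R2.le R1 (by
      rw [zb, tr_blocks, tr_add, dg_conj, dg_mul, tr_dg, tr_comm Q]; ring) fun t ht => by
    have hi : 0 < t⁻¹ := inv_pos.2 ht
    unfold Lt
    generalize t⁻¹ = c at hi
    have hX := pd_one_add hW hi.le
    have hY := pd_one_add hV hi.le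
    have D := det_main hX hY fun i => √c * d i
    have e : (c : ℂ) • ((dg d)ᴴ * (1 + (c : ℂ) • W)⁻¹ * dg d) =
        dg (fun i => √c * d i) * (1 + (c : ℂ) • W)⁻¹ * dg fun i => √c * d i := by
      have : (c : ℂ) = (√c : ℝ) * (√c : ℝ) := by
        rw [← Complex.ofReal_mul, Real.mul_self_sqrt hi.le]
      rw [dg_conj]
      generalize (1 + (c : ℂ) • W)⁻¹ = N
      ext i j
      simp only [dg, Matrix.smul_apply, mul_diagonal, diagonal_mul, smul_eq_mul]
      push_cast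
      linear_combination (d i * N i j * d j) * this
    have hP : (1 + (c : ℂ) • (Qᴴ * Q) +
        dg (fun i => √c * d i) * (1 + (c : ℂ) • W)⁻¹ * dg fun i => √c * d i).PosDef := by
      have := hX.inv.posSemidef.mul_mul_conjTranspose_same (dg fun i => √c * d i)
      rw [dg_conj] at this
      exact hY.add_posSemidef this
    rw [det_zb _ _ _ ((isUnit_iff_isUnit_det _).1 hX.isUnit), e, log_det_mul hX hP]
    have e1 : ∀ (N : Matrix n n ℂ) i, ((1 + (c : ℂ) • N : Matrix n n ℂ) i i).re =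
        1 + c * (N i i).re := fun N i => by simp
    have e2 : ∀ i, √c * d i * (√c * d i) = c * (d i * d i) := fun i => by
      rw [show √c * d i * (√c * d i) = (√c * √c) * (d i * d i) by ring, Real.mul_self_sqrt hi.le]
    simp only [e1, e2] at D
    linarith
  have S := psi_sum (fun i => d i * d i) (fun i => (W i i).re) (fun i => ((Qᴴ * Q) i i).re) ha
    (diag_re_nonneg hW) (diag_re_nonneg hV)
  rw [← tr_eq, ← tr_eq] at S
  rw [dg_conj, dg_mul, tr_dg, vN_dg ha, vN_comm Q, tr_comm Q]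
  unfold psi at S ⊢
  simp only [sum_sub_distrib] at S key
  linarith

lemma zb_iso (P : Matrix m n ℂ) (Q : Matrix k n ℂ) {W : Matrix m m ℂ} (hW : W.PosSemidef)
    {E : Matrix n m ℂ} (hE : Eᴴ * E = 1) :
    psi (tr (P * Pᴴ)) (tr W) (tr (Q * Qᴴ)) + vN (P * Pᴴ) + vN W + vN (Q * Qᴴ) ≤ vN (zb P Q W) := by
  obtain ⟨U, V, d, u1, u2, v1, v2, h⟩ := svd (E * P)
  have hG : (Uᴴ * E)ᴴ * (Uᴴ * E) = 1 := by
    rw [conjTranspose_mul, conjTranspose_conjTranspose,
      show Eᴴ * U * (Uᴴ * E) = Eᴴ * (U * Uᴴ) * E by simp only [Matrix.mul_assoc], u2,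
      Matrix.mul_one, hE]
  have hD : dg d = Uᴴ * E * P * V := by
    rw [Matrix.mul_assoc Uᴴ, h,
      show Uᴴ * (U * dg d * Vᴴ) * V = (Uᴴ * U) * dg d * (Vᴴ * V) by simp only [Matrix.mul_assoc],
      u1, v1]
    simp
  generalize Uᴴ * E = G at hG hD
  have hV : ∀ {a b : Type} (A : Matrix a n ℂ) (B : Matrix b n ℂ), A * V * (B * V)ᴴ = A * Bᴴ :=
    fun A B => by
      rw [conjTranspose_mul, show A * V * (Vᴴ * Bᴴ) = A * (V * Vᴴ) * Bᴴ by
        simp only [Matrix.mul_assoc], v2, Matrix.mul_one]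
  have Z := zb_diag d (Q * V) (hW.mul_mul_conjTranspose_same G)
  have hB : (fromBlocks G 0 0 (1 : Matrix k k ℂ))ᴴ * fromBlocks G 0 0 (1 : Matrix k k ℂ) = 1 := by
    rw [fromBlocks_conjTranspose, fromBlocks_multiply, hG]; simp
  have e : zb (dg d) (Q * V) (G * W * Gᴴ) = fromBlocks G 0 0 (1 : Matrix k k ℂ) * zb P Q W *
      (fromBlocks G 0 0 (1 : Matrix k k ℂ))ᴴ := by
    rw [zb, zb, hD, hV, hV, hV, hV, fromBlocks_conjTranspose, fromBlocks_multiply,
      fromBlocks_multiply]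
    simp [Matrix.mul_add, Matrix.add_mul, Matrix.mul_assoc]
  have e1 : dg d * (dg d)ᴴ = G * (P * Pᴴ) * Gᴴ := by
    rw [hD, hV, conjTranspose_mul]; simp only [Matrix.mul_assoc]
  rwa [e, e1, hV, vN_conj hB (zb_psd P Q hW), vN_conj hG hW, tr_conj hG, tr_conj hG,
    vN_conj hG (posSemidef_self_mul_conjTranspose P)] at Z

theorem zero_block (P : Matrix m n ℂ) (Q : Matrix k n ℂ) {W : Matrix m m ℂ} (hW : W.PosSemidef) :
    H (P * Pᴴ) + H W + H (Q * Qᴴ) + e2 (tr (P * Pᴴ) + tr W + tr (Q * Qᴴ)) (tr W * tr (Q * Qᴴ)) ≤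
      vN (zb P Q W) := by
  have hV : ∀ {a b : Type} (A : Matrix a n ℂ) (B : Matrix b n ℂ),
      fromCols A (0 : Matrix a m ℂ) * (fromCols B (0 : Matrix b m ℂ))ᴴ = A * Bᴴ := fun A B => by
    rw [conjTranspose_fromCols_eq_fromRows_conjTranspose, fromCols_mul_fromRows]; simp
  have Z := zb_iso (fromCols P (0 : Matrix m m ℂ)) (fromCols Q (0 : Matrix k m ℂ)) hW
    (E := fromRows (0 : Matrix n m ℂ) (1 : Matrix m m ℂ)) (by
      rw [conjTranspose_fromRows_eq_fromCols_conjTranspose, fromCols_mul_fromRows]; simp)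
  simp only [zb, hV] at Z
  unfold H psi zb at *
  linarith

lemma H_zero : H (0 : Matrix n n ℂ) = 0 := by
  have := H_smul (le_refl 0) (PosSemidef.zero (n := n) (R := ℂ))
  simpa using this

lemma H_add {A B : Matrix n n ℂ} (hA : A.PosSemidef) (hB : B.PosSemidef) :
    H A + H B ≤ H (A + B) := by
  obtain ⟨T, rfl⟩ := exists_sqrt hA
  have Z := zero_block T (0 : Matrix n n ℂ) hB
  have h0 : tr (0 : Matrix n n ℂ) = 0 := by simp [tr]
  have h1 := H_zero (n := n)
  have h2 : 0 ≤ tr (T * Tᴴ) + tr B := add_nonneg (tr_nonneg hA) (tr_nonneg hB)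
  simp only [zb, conjTranspose_zero, Matrix.zero_mul, Matrix.mul_zero, h0, h1, add_zero,
    mul_zero] at Z
  rw [vN_blocks (hA.add hB) PosSemidef.zero, e2, mul_zero, sub_zero, Real.sqrt_sq h2] at Z
  unfold H at *
  rw [h0] at h1
  rw [tr_add]
  simp only [sub_self, zero_div, negMulLog_zero, add_self_div_two] at Z h1
  linarith

lemma H_sum {ι : Type*} (S : Finset ι) (X : ι → Matrix n n ℂ) (h : ∀ i, (X i).PosSemidef) :
    ∑ i ∈ S, H (X i) ≤ H (∑ i ∈ S, X i) := by
  classical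
  induction S using Finset.induction_on with
  | empty => simp [H_zero]
  | insert a S ha ih =>
    rw [sum_insert ha, sum_insert ha]
    exact (add_le_add le_rfl ih).trans (H_add (h a) (posSemidef_sum _ fun i _ => h i))

lemma vN_le_blocks {C X Y D : Matrix n n ℂ} (h : (fromBlocks C X Y D).PosSemidef)
    (h1 : tr C + tr D = 1) :
    vN (fromBlocks C X Y D) ≤ vN (C + D) + negMulLog (tr C) + negMulLog (tr D) := by
  have hC : C.PosSemidef := h.submatrix Sum.inl
  have hD : D.PosSemidef := h.submatrix Sum.inr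
  have hZ : (fromBlocks (1 : Matrix n n ℂ) 0 0 (-1 : Matrix n n ℂ))ᴴ *
      fromBlocks (1 : Matrix n n ℂ) 0 0 (-1 : Matrix n n ℂ) = 1 := by
    rw [fromBlocks_conjTranspose, fromBlocks_multiply]; simp
  have h2 := h.mul_mul_conjTranspose_same (fromBlocks (1 : Matrix n n ℂ) 0 0 (-1 : Matrix n n ℂ))
  have h3 := H_add (psd_smul (c := 1 / 2) (by norm_num) h) (psd_smul (c := 1 / 2) (by norm_num) h2)
  rw [H_smul (by norm_num) h, H_smul (by norm_num) h2, H_conj hZ h] at h3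
  have e : (((1 / 2 : ℝ) : ℂ) • fromBlocks C X Y D + ((1 / 2 : ℝ) : ℂ) •
      (fromBlocks (1 : Matrix n n ℂ) 0 0 (-1 : Matrix n n ℂ) * fromBlocks C X Y D *
        (fromBlocks (1 : Matrix n n ℂ) 0 0 (-1 : Matrix n n ℂ))ᴴ)) = fromBlocks C 0 0 D := by
    rw [fromBlocks_conjTranspose, fromBlocks_multiply, fromBlocks_multiply]
    ext (i | i) (j | j) <;> simp <;> ring
  rw [e, H_one (by rw [tr_blocks, h1]), H_one (by rw [tr_blocks, h1]), vN_blocks hC hD] at h3
  have h4 := H_add hC hD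
  rw [H_one (M := C + D) (by rw [tr_add, h1])] at h4
  unfold H at h4
  linarith

end Vale.Agent.P358
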